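import Vale.Agent.Lib.P043.Defs

/-!
# Basic lemmas on tilings and periods
-/

namespace Vale.Agent.Lib.P043

variable {G : Type*} [AddCommGroup G]

theorem IsTiling.exists_rep {A : Set G} {F : Finset G} (h : IsTiling A F) (g : G) :
    ∃ a ∈ A, ∃ f ∈ F, a + f = g := by
  obtain ⟨⟨a, f⟩, ⟨ha, hf, e⟩, -⟩ := h g
  exact ⟨a, ha, f, hf, e⟩

theorem IsTiling.unique_rep {A : Set G} {F : Finset G} (h : IsTiling A F) {a f a' f' : G}
    (ha : a ∈ A) (hf : f ∈ F) (ha' : a' ∈ A) (hf' : f' ∈ F) (e : a + f = a' + f') :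
    a = a' ∧ f = f' := by
  obtain ⟨p, -, hp⟩ := h (a + f)
  have h1 := hp (a, f) ⟨ha, hf, rfl⟩
  have h2 := hp (a', f') ⟨ha', hf', e.symm⟩
  have h3 : ((a, f) : G × G) = (a', f') := h1.trans h2.symm
  exact ⟨congrArg Prod.fst h3, congrArg Prod.snd h3⟩

theorem isTiling_of {A : Set G} {F : Finset G} (hex : ∀ g, ∃ a ∈ A, ∃ f ∈ F, a + f = g)
    (huniq : ∀ a ∈ A, ∀ f ∈ F, ∀ a' ∈ A, ∀ f' ∈ F, a + f = a' + f' → a = a' ∧ f = f') :
    IsTiling A F := by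
  intro g
  obtain ⟨a, ha, f, hf, e⟩ := hex g
  refine ⟨(a, f), ⟨ha, hf, e⟩, ?_⟩
  rintro ⟨a', f'⟩ ⟨ha', hf', e'⟩
  obtain ⟨h1, h2⟩ := huniq a' ha' f' hf' a ha f hf (e'.trans e.symm)
  simp only [Prod.mk.injEq]
  exact ⟨h1, h2⟩

/-- The group of periods of a set. -/
def stab (X : Set G) : AddSubgroup G where
  carrier := {h | ∀ x, x + h ∈ X ↔ x ∈ X}
  zero_mem' := by intro x; simp
  add_mem' := by
    intro a b ha hb x
    rw [← add_assoc, hb, ha]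
  neg_mem' := by
    intro a ha x
    have h := ha (x + -a)
    rw [neg_add_cancel_right] at h
    exact h.symm

theorem mem_stab {X : Set G} {h : G} : h ∈ stab X ↔ ∀ x, x + h ∈ X ↔ x ∈ X := Iff.rfl

theorem stab_add_mem {X : Set G} {h : G} (hh : h ∈ stab X) (x : G) : x + h ∈ X ↔ x ∈ X :=
  hh x

theorem stab_sub_mem {X : Set G} {h : G} (hh : h ∈ stab X) (x : G) : x - h ∈ X ↔ x ∈ X := by
  have := (stab X).neg_mem hh x
  rwa [← sub_eq_add_neg] at this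

theorem stab_univ : stab (Set.univ : Set G) = ⊤ := by
  ext h
  simp [mem_stab]

theorem isPeriodic_of_le_stab {X : Set G} {H : AddSubgroup G} (hH : H.FiniteIndex)
    (hle : H ≤ stab X) : IsPeriodic X :=
  ⟨H, hH, fun _ hh a => hle hh a⟩

end Vale.Agent.Lib.P043
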