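import Vale.Agent.Lib.P043.Coord

/-!
# Direct sums of several tiles of `ℤ^d` whose spans are spanned by parts of a common basis
-/

namespace Vale.Agent.Lib.P043

open Pointwise

/-- The coordinate functionals (scaled by the determinant) of a family `v` of `d` vectors of
`ℤ^d`: `coordFun v b x` is the `b`-th entry of `x` times the adjugate of the matrix `v`. -/
noncomputable def coordFun {d : ℕ} (v : Fin d → Fin d → ℤ) (b : Fin d) : (Fin d → ℤ) →+ ℤ where
  toFun x := ∑ j, x j * (Matrix.adjugate (Matrix.of v)) j b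
  map_zero' := by simp
  map_add' x y := by simp [add_mul, Finset.sum_add_distrib]

theorem coordFun_apply {d : ℕ} (v : Fin d → Fin d → ℤ) (b : Fin d) (x : Fin d → ℤ) :
    coordFun v b x = ∑ j, x j * (Matrix.adjugate (Matrix.of v)) j b := rfl

theorem coordFun_basis {d : ℕ} (v : Fin d → Fin d → ℤ) (b c : Fin d) :
    coordFun v b (v c) = if c = b then (Matrix.of v).det else 0 := by
  have h := congrFun (congrFun (Matrix.mul_adjugate (Matrix.of v)) c) b
  rw [Matrix.mul_apply, Matrix.smul_apply, Matrix.one_apply] at h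
  rw [coordFun_apply]
  simp only [Matrix.of_apply] at h
  rw [h]
  by_cases hcb : c = b
  · simp [hcb]
  · simp [hcb]

theorem coordFun_sep {d : ℕ} (v : Fin d → Fin d → ℤ) (hv : (Matrix.of v).det ≠ 0)
    (x : Fin d → ℤ) (hx : ∀ b, coordFun v b x = 0) : x = 0 := by
  have h : Matrix.vecMul x (Matrix.adjugate (Matrix.of v)) = 0 := by
    funext b
    have := hx b
    rw [coordFun_apply] at this
    simpa [Matrix.vecMul, dotProduct] using this
  have h2 : Matrix.vecMul (Matrix.vecMul x (Matrix.adjugate (Matrix.of v))) (Matrix.of v) = 0 := by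
    rw [h, Matrix.zero_vecMul]
  rw [Matrix.vecMul_vecMul, Matrix.adjugate_mul, Matrix.vecMul_smul, Matrix.vecMul_one] at h2
  rcases smul_eq_zero.1 h2 with h3 | h3
  · exact absurd h3 hv
  · exact h3

theorem main_basis (d : ℕ) {κ : Type*} [Fintype κ] (F : κ → Finset (Fin d → ℤ))
    (h0 : ∀ i, (0 : Fin d → ℤ) ∈ F i) (hd : DirOn F Finset.univ)
    (v : Fin d → Fin d → ℤ) (hv : (Matrix.of v).det ≠ 0) (S : κ → Set (Fin d))
    (hsub : ∀ i, ∀ f ∈ F i, ∃ m : ℕ, 0 < m ∧ m • f ∈ AddSubgroup.closure (v '' S i))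
    (hper : ∀ i, ∀ b ∈ S i, ∃ m : ℕ, 0 < m ∧
      ∀ B : Set (Fin d → ℤ), IsTiling B (F i) → m • v b ∈ stab B)
    {A : Set (Fin d → ℤ)} (hA : IsTiling A (∑ i, F i)) :
    ∃ A' : Set (Fin d → ℤ), IsTiling A' (∑ i, F i) ∧ IsPeriodic A' := by
  have : AddGroup.FG (Fin d → ℤ) := Module.Finite.iff_addGroup_fg.1 inferInstance
  refine main_coord F h0 hd (coordFun v) v ?_ ?_ ?_ S ?_ hper hA
  · intro b c hbc
    rw [coordFun_basis, if_neg (Ne.symm hbc)]
  · intro b
    rw [coordFun_basis, if_pos rfl]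
    exact hv
  · intro x hx
    exact ⟨1, one_pos, by rw [one_smul]; exact coordFun_sep v hv x hx⟩
  · intro i f hf b hb
    obtain ⟨m, hm, hmem⟩ := hsub i f hf
    have hvan : ∀ y ∈ AddSubgroup.closure (v '' S i), coordFun v b y = 0 := by
      intro y hy
      induction hy using AddSubgroup.closure_induction with
      | mem y hy =>
        obtain ⟨c, hc, rfl⟩ := hy
        rw [coordFun_basis, if_neg]
        rintro rfl
        exact hb hc
      | zero => exact map_zero _
      | add a c _ _ iha ihc => rw [map_add, iha, ihc, add_zero]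
      | neg a _ iha => rw [map_neg, iha, neg_zero]
    have h1 := hvan _ hmem
    rw [map_nsmul, nsmul_eq_mul] at h1
    rcases mul_eq_zero.1 h1 with h2 | h2
    · exact absurd (by exact_mod_cast h2 : m = 0) hm.ne'
    · exact h2

section

variable {G : Type*} [AddCommGroup G] [DecidableEq G]

theorem fsum_image_sub {κ : Type*} [Fintype κ] (F : κ → Finset G) (o : κ → G) :
    ∑ i, (F i).image (fun f => f - o i) = (∑ i, F i).image (fun f => f - ∑ i, o i) := by
  ext x
  rw [mem_fsum, Finset.mem_image]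
  constructor
  · rintro ⟨g, hg, rfl⟩
    have : ∀ i, ∃ f ∈ F i, f - o i = g i := fun i =>
      Finset.mem_image.1 (hg i (Finset.mem_univ i))
    choose h hh he using this
    refine ⟨∑ i, h i, (mem_fsum _ _ _).2 ⟨h, fun i _ => hh i, rfl⟩, ?_⟩
    rw [← Finset.sum_sub_distrib]
    exact Finset.sum_congr rfl fun i _ => he i
  · rintro ⟨y, hy, rfl⟩
    obtain ⟨h, hh, rfl⟩ := (mem_fsum _ _ _).1 hy
    exact ⟨fun i => h i - o i, fun i hi => Finset.mem_image.2 ⟨h i, hh i hi, rfl⟩,
      by rw [Finset.sum_sub_distrib]⟩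

end

/-- **Periodic tilings for a direct sum of several tiles of prime cardinality** whose rational
spans are spanned by parts of a common basis `v` of `ℚ^d`. -/
theorem main_prime_basis (d : ℕ) {κ : Type*} [Fintype κ] (F : κ → Finset (Fin d → ℤ))
    (hprime : ∀ i, (F i).card.Prime) (hdirect : (∑ i, F i).card = ∏ i, (F i).card)
    (v : Fin d → Fin d → ℤ) (hv : (Matrix.of v).det ≠ 0) (S : κ → Set (Fin d))
    (hsub : ∀ i, ∀ f ∈ F i, ∀ f' ∈ F i, ∃ m : ℕ, 0 < m ∧
      m • (f - f') ∈ AddSubgroup.closure (v '' S i))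
    (hfull : ∀ i, ∀ b ∈ S i, ∃ m : ℕ, 0 < m ∧
      m • v b ∈ AddSubgroup.closure {x : Fin d → ℤ | ∃ f ∈ F i, ∃ f' ∈ F i, x = f - f'})
    {A : Set (Fin d → ℤ)} (hA : IsTiling A (∑ i, F i)) :
    ∃ A' : Set (Fin d → ℤ), IsTiling A' (∑ i, F i) ∧ IsPeriodic A' := by
  classical
  have hne : ∀ i, ∃ o, o ∈ F i := fun i => Finset.card_pos.1 (hprime i).pos
  choose o ho using hne
  have hc : ∀ i, ((F i).image (fun f => f - o i)).card = (F i).card := fun i =>
    Finset.card_image_of_injective _ sub_left_injective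
  have h0 : ∀ i, (0 : Fin d → ℤ) ∈ (F i).image (fun f => f - o i) := fun i =>
    Finset.mem_image.2 ⟨o i, ho i, sub_self (o i)⟩
  have hsum := fsum_image_sub F o
  have hd : DirOn (fun i => (F i).image (fun f => f - o i)) Finset.univ := by
    refine dirOn_of_card ?_
    rw [hsum, Finset.card_image_of_injective _ sub_left_injective, hdirect]
    exact Finset.prod_congr rfl fun i _ => (hc i).symm
  have hA₀ := hA.translate (∑ i, o i)
  rw [← hsum] at hA₀
  obtain ⟨A₁, hA₁, hper⟩ := main_basis d (fun i => (F i).image (fun f => f - o i)) h0 hd v hv S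
    (by
      intro i x hx
      obtain ⟨f, hf, rfl⟩ := Finset.mem_image.1 hx
      exact hsub i f hf (o i) (ho i))
    (by
      intro i b hb
      obtain ⟨m, hm, hmem⟩ := hfull i b hb
      have hle : AddSubgroup.closure {x : Fin d → ℤ | ∃ f ∈ F i, ∃ f' ∈ F i, x = f - f'}
          ≤ AddSubgroup.closure (((F i).image (fun f => f - o i) : Finset (Fin d → ℤ)) :
            Set (Fin d → ℤ)) := by
        rw [AddSubgroup.closure_le]
        rintro x ⟨f, hf, f', hf', rfl⟩
        have e : f - f' = (f - o i) - (f' - o i) := by abel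
        rw [e]
        exact AddSubgroup.sub_mem _
          (AddSubgroup.subset_closure (Finset.mem_coe.2 (Finset.mem_image.2 ⟨f, hf, rfl⟩)))
          (AddSubgroup.subset_closure (Finset.mem_coe.2 (Finset.mem_image.2 ⟨f', hf', rfl⟩)))
      refine ⟨(F i).card * m, Nat.mul_pos (hprime i).pos hm, fun B hB => ?_⟩
      refine (rigid_of_prime (hprime i) (hc i) (h0 i)).per B hB ⟨m • v b, hle hmem, ?_⟩
      rw [nsmulAddMonoidHom_apply, mul_smul])
    hA₀
  refine ⟨(fun a => a + -(∑ i, o i)) '' A₁, ?_, hper.translate _⟩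
  have hA₂ := hA₁.translate (-(∑ i, o i))
  rw [hsum, Finset.image_image] at hA₂
  have hid : ((fun f => f - -(∑ i, o i)) ∘ fun f => f - ∑ i, o i)
      = (id : (Fin d → ℤ) → (Fin d → ℤ)) := by
    funext f
    simp only [Function.comp, id]
    abel
  rw [hid, Finset.image_id] at hA₂
  exact hA₂

end Vale.Agent.Lib.P043
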