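import Vale.Agent.Lib.P043.Multi

/-!
# Periodic tilings for direct sums of several tiles in coordinate position

The group `G` carries a coordinate system: additive maps `φ b : G → ℤ` and vectors `v b` with
`φ b (v c) = 0` for `b ≠ c` and `φ b (v b) ≠ 0`.  Each tile `F i` lies in the coordinate
subgroup of a set `S i` of coordinates, and every tiling by `F i` alone is periodic along each
`v b`, `b ∈ S i`.  If the direct sum of the `F i` tiles `G`, it admits a periodic tiling.
-/

namespace Vale.Agent.Lib.P043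

open Pointwise

variable {G : Type*} [AddCommGroup G] [DecidableEq G]

theorem main_coord [AddGroup.FG G] {κ β : Type*} [Fintype κ] [Fintype β]
    (F : κ → Finset G) (h0 : ∀ i, (0 : G) ∈ F i) (hd : DirOn F Finset.univ)
    (φ : β → G →+ ℤ) (v : β → G)
    (hφv : ∀ b c, b ≠ c → φ b (v c) = 0) (hφb : ∀ b, φ b (v b) ≠ 0)
    (hsep : ∀ x : G, (∀ b, φ b x = 0) → ∃ m : ℕ, 0 < m ∧ m • x = 0)
    (S : κ → Set β)
    (hsub : ∀ i, ∀ f ∈ F i, ∀ b, b ∉ S i → φ b f = 0)
    (hper : ∀ i, ∀ b ∈ S i, ∃ m : ℕ, 0 < m ∧ ∀ B : Set G, IsTiling B (F i) → m • v b ∈ stab B)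
    {A : Set G} (hA : IsTiling A (∑ i, F i)) :
    ∃ A' : Set G, IsTiling A' (∑ i, F i) ∧ IsPeriodic A' := by
  classical
  have key : ∀ T : Finset β, ∃ (A' : Set G) (Γ : AddSubgroup G), IsTiling A' (∑ i, F i) ∧
      Γ ≤ stab A' ∧ (∀ x ∈ Γ, ∀ b, b ∉ T → φ b x = 0) ∧
      (∀ x : G, (∀ b, b ∉ T → φ b x = 0) → ∃ m : ℕ, 0 < m ∧ m • x ∈ Γ) := by
    intro T
    induction T using Finset.induction_on with
    | empty =>
      refine ⟨A, ⊥, hA, bot_le, ?_, ?_⟩
      · intro x hx b _
        rw [AddSubgroup.mem_bot.1 hx, map_zero]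
      · intro x hx
        obtain ⟨m, hm, e⟩ := hsep x fun b => hx b (Finset.notMem_empty b)
        exact ⟨m, hm, by rw [e]; exact AddSubgroup.zero_mem _⟩
    | insert b T hb ih =>
      obtain ⟨A₀, Γ, hA₀, hΓ, hΓT, hΓt⟩ := ih
      -- the tiles whose coordinate set contains `b`, and the others
      obtain ⟨J, hJ⟩ : ∃ J : Finset κ, ∀ i, i ∈ J ↔ b ∈ S i :=
        ⟨Finset.univ.filter fun i => b ∈ S i, fun i => by simp⟩
      have hdisj : Disjoint Jᶜ J := disjoint_compl_left
      have hunion : Jᶜ ∪ J = Finset.univ := by rw [Finset.union_comm, Finset.union_compl]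
      have hsum : ∑ i, F i = ∑ i ∈ Jᶜ, F i + ∑ j ∈ J, F j := by
        rw [← Finset.sum_union hdisj, hunion]
      have hdir : Dir (∑ i ∈ Jᶜ, F i) (∑ j ∈ J, F j) :=
        dir_of_dirOn (by rw [hunion]; exact hd) hdisj
      have h0I : (0 : G) ∈ ∑ i ∈ Jᶜ, F i := zero_mem_fsum _ _ fun i _ => h0 i
      have h0J : (0 : G) ∈ ∑ j ∈ J, F j := zero_mem_fsum _ _ fun i _ => h0 i
      -- a common period along `v b` of all tilings by the tiles in `J`
      have hMex : ∃ M : ℕ, 0 < M ∧
          ∀ B : Set G, IsTiling B (∑ j ∈ J, F j) → M • v b ∈ stab B := by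
        have hm : ∀ j : κ, ∃ m : ℕ, 0 < m ∧
            (b ∈ S j → ∀ B : Set G, IsTiling B (F j) → m • v b ∈ stab B) := by
          intro j
          by_cases h : b ∈ S j
          · obtain ⟨m, hm, hmB⟩ := hper j b h
            exact ⟨m, hm, fun _ => hmB⟩
          · exact ⟨1, one_pos, fun h' => absurd h' h⟩
        choose m hmpos hmper using hm
        refine ⟨∏ j, m j, Finset.prod_pos fun j _ => hmpos j, ?_⟩
        refine stab_of_all J (fun i _ => h0 i) (hd.mono (Finset.subset_univ J) fun i _ => h0 i) ?_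
        intro j hj B hB
        obtain ⟨c, hc⟩ := Finset.dvd_prod_of_mem m (Finset.mem_univ j)
        rw [hc, mul_comm, mul_smul]
        exact (stab B).nsmul_mem (hmper j ((hJ j).1 hj) B hB) c
      obtain ⟨M, hMpos, hMper⟩ := hMex
      rw [hsum] at hA₀
      have hB : IsTiling (sumSet A₀ (∑ i ∈ Jᶜ, F i)) (∑ j ∈ J, F j) := split_left hA₀ hdir
      have hC : IsTiling (sumSet A₀ (∑ j ∈ J, F j)) (∑ i ∈ Jᶜ, F i) := split_right hA₀ hdir
      have hcoup := coupling hA₀ hdir h0I h0J
      have hFL : ∀ f ∈ ∑ i ∈ Jᶜ, F i, f ∈ (φ b).ker := by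
        intro f hf
        obtain ⟨g, hg, rfl⟩ := (mem_fsum _ _ _).1 hf
        rw [AddMonoidHom.mem_ker, map_sum]
        refine Finset.sum_eq_zero fun i hi => ?_
        refine hsub i (g i) (hg i hi) b ?_
        rw [← hJ i]
        exact Finset.mem_compl.1 hi
      have hΓB : Γ ⊔ AddSubgroup.zmultiples (M • v b) ≤ stab (sumSet A₀ (∑ i ∈ Jᶜ, F i)) :=
        sup_le (hΓ.trans (stab_le_stab_sumSet _ _))
          (AddSubgroup.zmultiples_le_of_mem (hMper _ hB))
      have hMv : φ b (M • v b) ≠ 0 := by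
        rw [map_nsmul, nsmul_eq_mul]
        exact mul_ne_zero (by exact_mod_cast hMpos.ne') (hφb b)
      have hΓC : (Γ ⊔ AddSubgroup.zmultiples (M • v b)) ⊓ (φ b).ker
          ≤ stab (sumSet A₀ (∑ j ∈ J, F j)) := by
        rintro z ⟨hz1, hz2⟩
        obtain ⟨g, hg, w, hw, rfl⟩ := AddSubgroup.mem_sup.1 hz1
        obtain ⟨n, rfl⟩ := AddSubgroup.mem_zmultiples_iff.1 hw
        have hz2' : φ b (g + n • (M • v b)) = 0 := AddMonoidHom.mem_ker.1 hz2
        rw [map_add, hΓT g hg b hb, zero_add, map_zsmul, smul_eq_mul] at hz2'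
        have hn : n = 0 := by
          rcases mul_eq_zero.1 hz2' with h | h
          · exact h
          · exact absurd h hMv
        rw [hn, zero_smul, add_zero]
        exact (hΓ.trans (stab_le_stab_sumSet _ _)) hg
      obtain ⟨C', hC', hcoup', hΓC', -⟩ := resample hFL hC hcoup hΓB hΓC
      have hA' : IsTiling (sumSet A₀ (∑ i ∈ Jᶜ, F i) ∩ C') (∑ i ∈ Jᶜ, F i + ∑ j ∈ J, F j) :=
        recombine hB hC' hcoup'
      refine ⟨sumSet A₀ (∑ i ∈ Jᶜ, F i) ∩ C', Γ ⊔ AddSubgroup.zmultiples (M • v b),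
        by rw [hsum]; exact hA', (le_inf hΓB hΓC').trans (stab_inter_le _ _), ?_, ?_⟩
      · intro x hx c hc
        obtain ⟨g, hg, w, hw, rfl⟩ := AddSubgroup.mem_sup.1 hx
        obtain ⟨n, rfl⟩ := AddSubgroup.mem_zmultiples_iff.1 hw
        have hcb : c ≠ b := fun h => hc (h ▸ Finset.mem_insert_self b T)
        have hcT : c ∉ T := fun h => hc (Finset.mem_insert_of_mem h)
        rw [map_add, hΓT g hg c hcT, zero_add, map_zsmul, map_nsmul, hφv c b hcb, smul_zero,
          smul_zero]
      · intro x hx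
        have hy : ∀ c, c ∉ T → φ c (φ b (v b) • x - φ b x • v b) = 0 := by
          intro c hc
          rw [map_sub, map_zsmul, map_zsmul, smul_eq_mul, smul_eq_mul]
          by_cases hcb : c = b
          · subst hcb
            ring
          · have hcT : c ∉ insert b T := by
              intro h
              rcases Finset.mem_insert.1 h with h | h
              · exact hcb h
              · exact hc h
            rw [hx c hcT, hφv c b hcb]
            ring
        obtain ⟨m, hm, hmy⟩ := hΓt _ hy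
        have hmem : ((m * M : ℕ) : ℤ) • (φ b (v b) • x)
            ∈ Γ ⊔ AddSubgroup.zmultiples (M • v b) := by
          have e : ((m * M : ℕ) : ℤ) • (φ b (v b) • x)
              = M • (m • (φ b (v b) • x - φ b x • v b)) + ((m : ℤ) * φ b x) • (M • v b) := by
            rw [natCast_zsmul, mul_comm m M, mul_smul M m, smul_sub, smul_sub, mul_smul,
              natCast_zsmul, smul_comm (φ b x) M (v b), smul_comm m M (φ b x • v b)]
            abel
          rw [e]
          exact (Γ ⊔ AddSubgroup.zmultiples (M • v b)).add_mem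
            (AddSubgroup.mem_sup_left (Γ.nsmul_mem hmy M))
            (AddSubgroup.mem_sup_right
              (AddSubgroup.zsmul_mem _ (AddSubgroup.mem_zmultiples _) _))
        rw [← mul_smul] at hmem
        refine exists_nsmul_of_zsmul _ (mul_ne_zero ?_ (hφb b)) hmem
        exact_mod_cast (Nat.mul_pos hm hMpos).ne'
  obtain ⟨A', Γ, hA', hΓ, -, hΓt⟩ := key Finset.univ
  refine ⟨A', hA', isPeriodic_of_le_stab (finiteIndex_of_torsion Γ fun x => ?_) hΓ⟩
  exact hΓt x fun b hb => absurd (Finset.mem_univ b) hb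

end Vale.Agent.Lib.P043
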