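import Mathlib

/-!
# Translational tilings of abelian groups: basic definitions
-/

namespace Vale.Agent.Lib.P043

/-- `A ⊕ F = G`: every element `g` of the abelian group `G` has exactly one representation
`g = a + f` with `a ∈ A` and `f ∈ F`; that is, `A` is a tiling of `G` by translates of the
finite set `F`. -/
def IsTiling {G : Type*} [AddCommGroup G] (A : Set G) (F : Finset G) : Prop :=
  ∀ g : G, ∃! p : G × G, p.1 ∈ A ∧ p.2 ∈ F ∧ p.1 + p.2 = g

/-- `A` is periodic: `A + h = A` for every `h` in some subgroup of finite index of `G`. -/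
def IsPeriodic {G : Type*} [AddCommGroup G] (A : Set G) : Prop :=
  ∃ H : AddSubgroup G, H.FiniteIndex ∧ ∀ h ∈ H, ∀ a : G, a + h ∈ A ↔ a ∈ A

end Vale.Agent.Lib.P043
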