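import Vale.Agent.Lib.P043.Main

/-!
# Periodic tilings for direct sums of two tiles of prime cardinality (general position)
-/

namespace Vale.Agent.Lib.P043

open Pointwise

variable {G : Type*} [AddCommGroup G]

theorem mem_image_add_right {A : Set G} {v x : G} :
    x ∈ (fun a => a + v) '' A ↔ x - v ∈ A := by
  constructor
  · rintro ⟨a, ha, rfl⟩
    rwa [add_sub_cancel_right]
  · intro h
    exact ⟨x - v, h, sub_add_cancel x v⟩

theorem IsPeriodic.translate {A : Set G} (h : IsPeriodic A) (v : G) :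
    IsPeriodic ((fun a => a + v) '' A) := by
  obtain ⟨H, hH, hper⟩ := h
  refine ⟨H, hH, fun h hh a => ?_⟩
  rw [mem_image_add_right, mem_image_add_right]
  have := hper h hh (a - v)
  rw [← this]
  have e : a + h - v = a - v + h := by abel
  rw [e]

section

variable [DecidableEq G]

theorem IsTiling.translate {A : Set G} {F : Finset G} (h : IsTiling A F) (v : G) :
    IsTiling ((fun a => a + v) '' A) (F.image (fun f => f - v)) := by
  refine isTiling_of ?_ ?_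
  · intro g
    obtain ⟨a, ha, f, hf, e⟩ := h.exists_rep g
    refine ⟨a + v, ⟨a, ha, rfl⟩, f - v, Finset.mem_image_of_mem _ hf, ?_⟩
    rw [← e]
    abel
  · rintro _ ⟨a, ha, rfl⟩ _ hx _ ⟨a', ha', rfl⟩ _ hx' e
    obtain ⟨f, hf, rfl⟩ := Finset.mem_image.1 hx
    obtain ⟨f', hf', rfl⟩ := Finset.mem_image.1 hx'
    have e' : a + f = a' + f' := by
      have h1 : a + v + (f - v) = a + f := by abel
      have h2 : a' + v + (f' - v) = a' + f' := by abel
      rw [← h1, ← h2]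
      exact e
    obtain ⟨haa, hff⟩ := h.unique_rep ha hf ha' hf' e'
    exact ⟨by rw [haa], by rw [hff]⟩

theorem dir_of_card {F₁ F₂ : Finset G} (h : (F₁ + F₂).card = F₁.card * F₂.card) :
    Dir F₁ F₂ := by
  rw [Finset.card_add_iff] at h
  intro f₁ h1 f₂ h2 f₁' h1' f₂' h2' e
  have := h (show ((f₁, f₂) : G × G) ∈ ((F₁ : Set G) ×ˢ (F₂ : Set G)) from ⟨h1, h2⟩)
    (show ((f₁', f₂') : G × G) ∈ ((F₁ : Set G) ×ˢ (F₂ : Set G)) from ⟨h1', h2'⟩) e
  simpa using this

/-- **Periodic tilings for a direct sum of two tiles of prime cardinality.**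
If `F₁`, `F₂` have prime cardinality, the sum `F₁ + F₂` is direct and tiles the finitely generated
abelian group `G`, then `F₁ + F₂` admits a periodic tiling of `G`. -/
theorem main_prime [AddGroup.FG G] {F₁ F₂ : Finset G} (h₁ : F₁.card.Prime)
    (h₂ : F₂.card.Prime) (hcard : (F₁ + F₂).card = F₁.card * F₂.card) {A : Set G}
    (hA : IsTiling A (F₁ + F₂)) :
    ∃ A' : Set G, IsTiling A' (F₁ + F₂) ∧ IsPeriodic A' := by
  have hdir := dir_of_card hcard
  obtain ⟨o₁, ho₁⟩ : F₁.Nonempty := Finset.card_pos.1 h₁.pos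
  obtain ⟨o₂, ho₂⟩ : F₂.Nonempty := Finset.card_pos.1 h₂.pos
  -- the translated tiles, containing `0`
  have hc₁ : (F₁.image (fun f => f - o₁)).card = F₁.card :=
    Finset.card_image_of_injective _ (sub_left_injective)
  have hc₂ : (F₂.image (fun f => f - o₂)).card = F₂.card :=
    Finset.card_image_of_injective _ (sub_left_injective)
  have h01 : (0 : G) ∈ F₁.image (fun f => f - o₁) :=
    Finset.mem_image.2 ⟨o₁, ho₁, sub_self o₁⟩
  have h02 : (0 : G) ∈ F₂.image (fun f => f - o₂) :=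
    Finset.mem_image.2 ⟨o₂, ho₂, sub_self o₂⟩
  have hdir' : Dir (F₁.image (fun f => f - o₁)) (F₂.image (fun f => f - o₂)) := by
    intro x₁ hx₁ x₂ hx₂ x₁' hx₁' x₂' hx₂' e
    obtain ⟨f₁, h1, rfl⟩ := Finset.mem_image.1 hx₁
    obtain ⟨f₂, h2, rfl⟩ := Finset.mem_image.1 hx₂
    obtain ⟨f₁', h1', rfl⟩ := Finset.mem_image.1 hx₁'
    obtain ⟨f₂', h2', rfl⟩ := Finset.mem_image.1 hx₂'
    have e' : f₁ + f₂ = f₁' + f₂' := by
      have h3 : f₁ + f₂ = (f₁ - o₁) + (f₂ - o₂) + (o₁ + o₂) := by abel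
      have h4 : f₁' + f₂' = (f₁' - o₁) + (f₂' - o₂) + (o₁ + o₂) := by abel
      rw [h3, h4, e]
    obtain ⟨ha, hb⟩ := hdir f₁ h1 f₂ h2 f₁' h1' f₂' h2' e'
    exact ⟨by rw [ha], by rw [hb]⟩
  have hsum : F₁.image (fun f => f - o₁) + F₂.image (fun f => f - o₂)
      = (F₁ + F₂).image (fun f => f - (o₁ + o₂)) := by
    ext x
    simp only [Finset.mem_add, Finset.mem_image]
    constructor
    · rintro ⟨_, ⟨f₁, h1, rfl⟩, _, ⟨f₂, h2, rfl⟩, rfl⟩
      exact ⟨f₁ + f₂, ⟨f₁, h1, f₂, h2, rfl⟩, by abel⟩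
    · rintro ⟨_, ⟨f₁, h1, f₂, h2, rfl⟩, rfl⟩
      exact ⟨f₁ - o₁, ⟨f₁, h1, rfl⟩, f₂ - o₂, ⟨f₂, h2, rfl⟩, by abel⟩
  have hA₀ := hA.translate (o₁ + o₂)
  rw [← hsum] at hA₀
  have hp₁ : (F₁.image (fun f => f - o₁)).card.Prime := by rw [hc₁]; exact h₁
  have hp₂ : (F₂.image (fun f => f - o₂)).card.Prime := by rw [hc₂]; exact h₂
  obtain ⟨A₁, hA₁, hper⟩ := main_rigid
    (rigid_of_prime hp₁ rfl h01) (rigid_of_prime hp₂ rfl h02) h01 h02 hdir' hA₀
  refine ⟨(fun a => a + -(o₁ + o₂)) '' A₁, ?_, hper.translate _⟩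
  have hA₂ := hA₁.translate (-(o₁ + o₂))
  rw [hsum, Finset.image_image] at hA₂
  have hid : ((fun f => f - -(o₁ + o₂)) ∘ fun f => f - (o₁ + o₂)) = (id : G → G) := by
    funext f
    simp only [Function.comp, id]
    abel
  rw [hid, Finset.image_id] at hA₂
  exact hA₂

end

end Vale.Agent.Lib.P043
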