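import Vale.Agent.Lib.P043.Basic

/-!
# Tilings of the integers by a finite set are periodic with a uniform period

The pigeonhole argument: a window of length `n = max E - min E` of a tiling `T ⊕ E = ℤ`
determines the tiling on both sides.
-/

namespace Vale.Agent.Lib.P043

/-- Forward determination: `x ∈ T` iff `x + lo` is not covered from the window below `x`. -/
theorem newman_fwd {E : Finset ℤ} {T : Set ℤ} (hT : IsTiling T E) {lo hi : ℤ} (hlo : lo ∈ E)
    (hlo' : ∀ e ∈ E, lo ≤ e) (hhi' : ∀ e ∈ E, e ≤ hi) (x : ℤ) :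
    x ∈ T ↔ ¬ ∃ t ∈ T, x - (hi - lo) ≤ t ∧ t < x ∧ x + lo - t ∈ E := by
  constructor
  · rintro hx ⟨t, ht, -, htx, he⟩
    have := (hT.unique_rep ht he hx hlo (by ring)).1
    omega
  · intro h
    obtain ⟨t, ht, e, he, hte⟩ := hT.exists_rep (x + lo)
    by_cases htx : t = x
    · rw [← htx]; exact ht
    · exfalso
      apply h
      have h1 := hlo' e he
      have h2 := hhi' e he
      refine ⟨t, ht, by omega, by omega, ?_⟩
      have : x + lo - t = e := by omega
      rw [this]
      exact he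

/-- Backward determination: `x ∈ T` iff `x + hi` is not covered from the window above `x`. -/
theorem newman_bwd {E : Finset ℤ} {T : Set ℤ} (hT : IsTiling T E) {lo hi : ℤ} (hhi : hi ∈ E)
    (hlo' : ∀ e ∈ E, lo ≤ e) (hhi' : ∀ e ∈ E, e ≤ hi) (x : ℤ) :
    x ∈ T ↔ ¬ ∃ t ∈ T, x < t ∧ t ≤ x + (hi - lo) ∧ x + hi - t ∈ E := by
  constructor
  · rintro hx ⟨t, ht, htx, -, he⟩
    have := (hT.unique_rep ht he hx hhi (by ring)).1
    omega
  · intro h
    obtain ⟨t, ht, e, he, hte⟩ := hT.exists_rep (x + hi)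
    by_cases htx : t = x
    · rw [← htx]; exact ht
    · exfalso
      apply h
      have h1 := hlo' e he
      have h2 := hhi' e he
      refine ⟨t, ht, by omega, by omega, ?_⟩
      have : x + hi - t = e := by omega
      rw [this]
      exact he

/-- Two positions whose windows of length `hi - lo` agree differ by a period. -/
theorem newman_agree {E : Finset ℤ} {T : Set ℤ} (hT : IsTiling T E) {lo hi : ℤ} (hlo : lo ∈ E)
    (hhi : hi ∈ E) (hlo' : ∀ e ∈ E, lo ≤ e) (hhi' : ∀ e ∈ E, e ≤ hi) {x y : ℤ}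
    (hxy : ∀ i : ℤ, 0 ≤ i → i < hi - lo → (x + i ∈ T ↔ y + i ∈ T)) :
    y - x ∈ stab T := by
  -- one step forward and one step backward
  have fwd : ∀ a b : ℤ, (∀ i : ℤ, 0 ≤ i → i < hi - lo → (a + i ∈ T ↔ b + i ∈ T)) →
      (a + (hi - lo) ∈ T ↔ b + (hi - lo) ∈ T) := by
    intro a b hab
    rw [newman_fwd hT hlo hlo' hhi' (a + (hi - lo)), newman_fwd hT hlo hlo' hhi' (b + (hi - lo))]
    apply not_congr
    constructor
    · rintro ⟨t, ht, h1, h2, h3⟩
      have hmem := (hab (t - a) (by omega) (by omega)).1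
        (by rw [show a + (t - a) = t by ring]; exact ht)
      refine ⟨b + (t - a), hmem, by omega, by omega, ?_⟩
      rw [show b + (hi - lo) + lo - (b + (t - a)) = a + (hi - lo) + lo - t by ring]
      exact h3
    · rintro ⟨t, ht, h1, h2, h3⟩
      have hmem := (hab (t - b) (by omega) (by omega)).2
        (by rw [show b + (t - b) = t by ring]; exact ht)
      refine ⟨a + (t - b), hmem, by omega, by omega, ?_⟩
      rw [show a + (hi - lo) + lo - (a + (t - b)) = b + (hi - lo) + lo - t by ring]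
      exact h3
  have bwd : ∀ a b : ℤ, (∀ i : ℤ, 0 ≤ i → i < hi - lo → (a + i ∈ T ↔ b + i ∈ T)) →
      (a - 1 ∈ T ↔ b - 1 ∈ T) := by
    intro a b hab
    rw [newman_bwd hT hhi hlo' hhi' (a - 1), newman_bwd hT hhi hlo' hhi' (b - 1)]
    apply not_congr
    constructor
    · rintro ⟨t, ht, h1, h2, h3⟩
      have hmem := (hab (t - a) (by omega) (by omega)).1
        (by rw [show a + (t - a) = t by ring]; exact ht)
      refine ⟨b + (t - a), hmem, by omega, by omega, ?_⟩
      rw [show b - 1 + hi - (b + (t - a)) = a - 1 + hi - t by ring]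
      exact h3
    · rintro ⟨t, ht, h1, h2, h3⟩
      have hmem := (hab (t - b) (by omega) (by omega)).2
        (by rw [show b + (t - b) = t by ring]; exact ht)
      refine ⟨a + (t - b), hmem, by omega, by omega, ?_⟩
      rw [show a - 1 + hi - (a + (t - b)) = b - 1 + hi - t by ring]
      exact h3
  have shift : ∀ j : ℤ, ∀ i : ℤ, 0 ≤ i → i < hi - lo → (x + j + i ∈ T ↔ y + j + i ∈ T) := by
    intro j
    induction j using Int.induction_on with
    | zero => simpa using hxy
    | succ k ih =>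
      intro i hi0 hin
      by_cases hlast : i + 1 < hi - lo
      · have := ih (i + 1) (by omega) hlast
        rw [show x + ((k : ℤ) + 1) + i = x + (k : ℤ) + (i + 1) by ring,
          show y + ((k : ℤ) + 1) + i = y + (k : ℤ) + (i + 1) by ring]
        exact this
      · have hi' : i = hi - lo - 1 := by omega
        have := fwd (x + (k : ℤ)) (y + (k : ℤ)) ih
        rw [show x + ((k : ℤ) + 1) + i = x + (k : ℤ) + (hi - lo) by rw [hi']; ring,
          show y + ((k : ℤ) + 1) + i = y + (k : ℤ) + (hi - lo) by rw [hi']; ring]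
        exact this
    | pred k ih =>
      intro i hi0 hin
      by_cases hfirst : i = 0
      · have := bwd (x + -(k : ℤ)) (y + -(k : ℤ)) ih
        rw [show x + (-(k : ℤ) - 1) + i = x + -(k : ℤ) - 1 by rw [hfirst]; ring,
          show y + (-(k : ℤ) - 1) + i = y + -(k : ℤ) - 1 by rw [hfirst]; ring]
        exact this
      · have := ih (i - 1) (by omega) (by omega)
        rw [show x + (-(k : ℤ) - 1) + i = x + -(k : ℤ) + (i - 1) by ring,
          show y + (-(k : ℤ) - 1) + i = y + -(k : ℤ) + (i - 1) by ring]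
        exact this
  rw [mem_stab]
  intro z
  have := fwd (x + (z - (hi - lo) - x)) (y + (z - (hi - lo) - x)) (shift (z - (hi - lo) - x))
  rw [show x + (z - (hi - lo) - x) + (hi - lo) = z by ring,
    show y + (z - (hi - lo) - x) + (hi - lo) = z + (y - x) by ring] at this
  exact this.symm

/-- **Newman's theorem with a uniform period**: all tilings of `ℤ` by a given finite set `E`
have a common positive period. -/
theorem newman_period (E : Finset ℤ) :
    ∃ N : ℕ, 0 < N ∧ ∀ T : Set ℤ, IsTiling T E → (N : ℤ) ∈ stab T := by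
  classical
  rcases E.eq_empty_or_nonempty with hE | hE
  · refine ⟨1, one_pos, fun T hT => ?_⟩
    obtain ⟨a, -, f, hf, -⟩ := hT.exists_rep 0
    rw [hE] at hf
    exact absurd hf (Finset.notMem_empty f)
  · set lo := E.min' hE with hlo_def
    set hi := E.max' hE with hhi_def
    have hlo : lo ∈ E := E.min'_mem hE
    have hhi : hi ∈ E := E.max'_mem hE
    have hlo' : ∀ e ∈ E, lo ≤ e := fun e he => E.min'_le e he
    have hhi' : ∀ e ∈ E, e ≤ hi := fun e he => E.le_max' e he
    set n : ℕ := (hi - lo).toNat with hn_def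
    have hn : (n : ℤ) = hi - lo := Int.toNat_of_nonneg (by linarith [hlo' hi hhi])
    refine ⟨(2 ^ n).factorial, Nat.factorial_pos _, fun T hT => ?_⟩
    -- pigeonhole on windows
    let W : Fin (2 ^ n + 1) → (Fin n → Bool) := fun a i => decide (((a : ℕ) : ℤ) + ((i : ℕ) : ℤ) ∈ T)
    have hcard : Fintype.card (Fin n → Bool) < Fintype.card (Fin (2 ^ n + 1)) := by
      simp
    obtain ⟨a, b, hab, hW⟩ := Fintype.exists_ne_map_eq_of_card_lt W hcard
    -- the two positions agree on a window
    have hagree : ∀ i : ℤ, 0 ≤ i → i < hi - lo →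
        ((((a : ℕ) : ℤ) + i ∈ T) ↔ (((b : ℕ) : ℤ) + i ∈ T)) := by
      intro i hi0 hin
      have hlt : i.toNat < n := by omega
      have := congrFun hW ⟨i.toNat, hlt⟩
      simp only [W, decide_eq_decide] at this
      rw [show ((i.toNat : ℕ) : ℤ) = i from Int.toNat_of_nonneg hi0] at this
      exact this
    have hagree' : ∀ i : ℤ, 0 ≤ i → i < hi - lo →
        ((((b : ℕ) : ℤ) + i ∈ T) ↔ (((a : ℕ) : ℤ) + i ∈ T)) := fun i h1 h2 =>
      (hagree i h1 h2).symm
    have hper1 : ((b : ℕ) : ℤ) - ((a : ℕ) : ℤ) ∈ stab T :=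
      newman_agree hT hlo hhi hlo' hhi' hagree
    have hper2 : ((a : ℕ) : ℤ) - ((b : ℕ) : ℤ) ∈ stab T :=
      newman_agree hT hlo hhi hlo' hhi' hagree'
    have hne : (a : ℕ) ≠ (b : ℕ) := fun h => hab (Fin.ext h)
    have ha := a.isLt
    have hb := b.isLt
    -- a positive period `P ≤ 2 ^ n`
    obtain ⟨P, hP0, hPle, hP⟩ : ∃ P : ℕ, 0 < P ∧ P ≤ 2 ^ n ∧ (P : ℤ) ∈ stab T := by
      rcases Nat.lt_or_gt_of_ne hne with h | h
      · refine ⟨(b : ℕ) - (a : ℕ), by omega, by omega, ?_⟩
        rw [Nat.cast_sub h.le]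
        exact hper1
      · refine ⟨(a : ℕ) - (b : ℕ), by omega, by omega, ?_⟩
        rw [Nat.cast_sub h.le]
        exact hper2
    obtain ⟨c, hc⟩ := Nat.dvd_factorial hP0 hPle
    rw [hc, Nat.cast_mul, mul_comm, ← smul_eq_mul, natCast_zsmul]
    exact (stab T).nsmul_mem hP c

end Vale.Agent.Lib.P043
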