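import Vale.Agent.Lib.P043.Basis
import Vale.Agent.Lib.P043.Newman

/-!
# Tiles contained in a line, and direct sums of tiles of prime cardinality and line tiles
-/

namespace Vale.Agent.Lib.P043

open Pointwise

section

variable {G : Type*} [AddCommGroup G] [DecidableEq G]

/-- All tilings of `G` by a finite set of multiples of `u` have a common period `N • u`. -/
theorem line_period (u : G) (F : Finset G) (hF : ∀ f ∈ F, ∃ n : ℤ, f = n • u) :
    ∃ N : ℕ, 0 < N ∧ ∀ B : Set G, IsTiling B F → N • u ∈ stab B := by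
  classical
  have hc : ∀ f : G, ∃ n : ℤ, f ∈ F → f = n • u := by
    intro f
    by_cases hf : f ∈ F
    · obtain ⟨n, hn⟩ := hF f hf
      exact ⟨n, fun _ => hn⟩
    · exact ⟨0, fun h => absurd h hf⟩
  choose c hcf using hc
  obtain ⟨N, hN, hper⟩ := newman_period (F.image c)
  refine ⟨N, hN, fun B hB => ?_⟩
  -- the tiling restricted to the line through `x`
  have hline : ∀ x : G, IsTiling {t : ℤ | x + t • u ∈ B} (F.image c) := by
    intro x
    refine isTiling_of ?_ ?_
    · intro s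
      obtain ⟨b, hb, f, hf, e⟩ := hB.exists_rep (x + s • u)
      refine ⟨s - c f, ?_, c f, Finset.mem_image_of_mem c hf, by ring⟩
      show x + (s - c f) • u ∈ B
      have : x + (s - c f) • u = b := by
        rw [sub_smul, ← hcf f hf, ← add_sub_assoc, ← e, add_sub_cancel_right]
      rw [this]
      exact hb
    · intro t ht e he t' ht' e' he' hsum
      obtain ⟨f, hf, rfl⟩ := Finset.mem_image.1 he
      obtain ⟨f', hf', rfl⟩ := Finset.mem_image.1 he'
      have ht1 : x + t • u ∈ B := ht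
      have ht1' : x + t' • u ∈ B := ht'
      have e1 : (x + t • u) + f = (x + t' • u) + f' := by
        have h1 : (x + t • u) + f = x + (t + c f) • u := by
          rw [add_smul, ← hcf f hf, add_assoc]
        have h2 : (x + t' • u) + f' = x + (t' + c f') • u := by
          rw [add_smul, ← hcf f' hf', add_assoc]
        rw [h1, h2, hsum]
      obtain ⟨-, hff⟩ := hB.unique_rep ht1 hf ht1' hf' e1
      rw [hff] at hsum ⊢
      exact ⟨by linarith, rfl⟩
  rw [mem_stab]
  intro x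
  have h := (mem_stab.1 (hper _ (hline x))) 0
  have h' : x + ((0 : ℤ) + (N : ℤ)) • u ∈ B ↔ x + (0 : ℤ) • u ∈ B := h
  rw [zero_add, zero_smul, add_zero, natCast_zsmul] at h'
  exact h'

/-- A finite set of multiples of `u` is rigid. -/
theorem exists_rigid_of_line (u : G) (F : Finset G) (hF : ∀ f ∈ F, ∃ n : ℤ, f = n • u) :
    ∃ L Λ : AddSubgroup G, Rigid F L Λ := by
  obtain ⟨N, hN, hper⟩ := line_period u F hF
  refine ⟨AddSubgroup.zmultiples u, AddSubgroup.zmultiples (N • u), ?_, ?_, ?_, ?_⟩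
  · intro f hf
    obtain ⟨n, rfl⟩ := hF f hf
    exact AddSubgroup.zsmul_mem _ (AddSubgroup.mem_zmultiples u) n
  · exact AddSubgroup.zmultiples_le_of_mem
      (AddSubgroup.nsmul_mem _ (AddSubgroup.mem_zmultiples u) N)
  · intro l hl
    obtain ⟨n, rfl⟩ := AddSubgroup.mem_zmultiples_iff.1 hl
    refine ⟨N, hN, ?_⟩
    rw [smul_comm]
    exact AddSubgroup.zsmul_mem _ (AddSubgroup.mem_zmultiples _) n
  · intro B hB
    exact AddSubgroup.zmultiples_le_of_mem (hper B hB)

/-- A tile of prime cardinality, or contained in a line, is rigid after translation to `0`. -/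
theorem exists_rigid_of_type {F : Finset G}
    (h : F.card.Prime ∨ ∃ u : G, ∀ f ∈ F, ∀ f' ∈ F, ∃ n : ℤ, f - f' = n • u) {o : G}
    (ho : o ∈ F) : ∃ L Λ : AddSubgroup G, Rigid (F.image (fun f => f - o)) L Λ := by
  rcases h with hp | ⟨u, hu⟩
  · have hc : (F.image (fun f => f - o)).card = F.card :=
      Finset.card_image_of_injective _ sub_left_injective
    exact ⟨_, _, rigid_of_prime hp hc (Finset.mem_image.2 ⟨o, ho, sub_self o⟩)⟩
  · refine exists_rigid_of_line u _ ?_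
    intro x hx
    obtain ⟨f, hf, rfl⟩ := Finset.mem_image.1 hx
    exact hu f hf o ho

/-- **Periodic tilings for a direct sum of two tiles, each of prime cardinality or contained
in a line.** -/
theorem main_mixed [AddGroup.FG G] {F₁ F₂ : Finset G}
    (h₁ : F₁.card.Prime ∨ ∃ u : G, ∀ f ∈ F₁, ∀ f' ∈ F₁, ∃ n : ℤ, f - f' = n • u)
    (h₂ : F₂.card.Prime ∨ ∃ u : G, ∀ f ∈ F₂, ∀ f' ∈ F₂, ∃ n : ℤ, f - f' = n • u)
    (hcard : (F₁ + F₂).card = F₁.card * F₂.card) {A : Set G}
    (hA : IsTiling A (F₁ + F₂)) :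
    ∃ A' : Set G, IsTiling A' (F₁ + F₂) ∧ IsPeriodic A' := by
  have hdir := dir_of_card hcard
  obtain ⟨a, -, f, hf, -⟩ := hA.exists_rep 0
  obtain ⟨o₁, ho₁, o₂, ho₂, -⟩ := Finset.mem_add.1 hf
  obtain ⟨L₁, Λ₁, r₁⟩ := exists_rigid_of_type h₁ ho₁
  obtain ⟨L₂, Λ₂, r₂⟩ := exists_rigid_of_type h₂ ho₂
  have h01 : (0 : G) ∈ F₁.image (fun f => f - o₁) :=
    Finset.mem_image.2 ⟨o₁, ho₁, sub_self o₁⟩
  have h02 : (0 : G) ∈ F₂.image (fun f => f - o₂) :=
    Finset.mem_image.2 ⟨o₂, ho₂, sub_self o₂⟩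
  have hdir' : Dir (F₁.image (fun f => f - o₁)) (F₂.image (fun f => f - o₂)) := by
    intro x₁ hx₁ x₂ hx₂ x₁' hx₁' x₂' hx₂' e
    obtain ⟨f₁, h1, rfl⟩ := Finset.mem_image.1 hx₁
    obtain ⟨f₂, h2, rfl⟩ := Finset.mem_image.1 hx₂
    obtain ⟨f₁', h1', rfl⟩ := Finset.mem_image.1 hx₁'
    obtain ⟨f₂', h2', rfl⟩ := Finset.mem_image.1 hx₂'
    have e' : f₁ + f₂ = f₁' + f₂' := by
      have h3 : f₁ + f₂ = (f₁ - o₁) + (f₂ - o₂) + (o₁ + o₂) := by abel
      have h4 : f₁' + f₂' = (f₁' - o₁) + (f₂' - o₂) + (o₁ + o₂) := by abel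
      rw [h3, h4, e]
    obtain ⟨ha, hb⟩ := hdir f₁ h1 f₂ h2 f₁' h1' f₂' h2' e'
    exact ⟨by rw [ha], by rw [hb]⟩
  have hsum : F₁.image (fun f => f - o₁) + F₂.image (fun f => f - o₂)
      = (F₁ + F₂).image (fun f => f - (o₁ + o₂)) := by
    ext x
    simp only [Finset.mem_add, Finset.mem_image]
    constructor
    · rintro ⟨_, ⟨f₁, h1, rfl⟩, _, ⟨f₂, h2, rfl⟩, rfl⟩
      exact ⟨f₁ + f₂, ⟨f₁, h1, f₂, h2, rfl⟩, by abel⟩
    · rintro ⟨_, ⟨f₁, h1, f₂, h2, rfl⟩, rfl⟩
      exact ⟨f₁ - o₁, ⟨f₁, h1, rfl⟩, f₂ - o₂, ⟨f₂, h2, rfl⟩, by abel⟩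
  have hA₀ := hA.translate (o₁ + o₂)
  rw [← hsum] at hA₀
  obtain ⟨A₁, hA₁, hper⟩ := main_rigid r₁ r₂ h01 h02 hdir' hA₀
  refine ⟨(fun a => a + -(o₁ + o₂)) '' A₁, ?_, hper.translate _⟩
  have hA₂ := hA₁.translate (-(o₁ + o₂))
  rw [hsum, Finset.image_image] at hA₂
  have hid : ((fun f => f - -(o₁ + o₂)) ∘ fun f => f - (o₁ + o₂)) = (id : G → G) := by
    funext f
    simp only [Function.comp, id]
    abel
  rw [hid, Finset.image_id] at hA₂
  exact hA₂

end

/-- **Periodic tilings for a direct sum of several tiles, each of prime cardinality or contained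
in a line**, whose rational spans are spanned by parts of a common basis `v` of `ℚ^d`. -/
theorem main_mixed_basis (d : ℕ) {κ : Type*} [Fintype κ] (F : κ → Finset (Fin d → ℤ))
    (htype : ∀ i, (F i).card.Prime ∨
      ∃ u : Fin d → ℤ, ∀ f ∈ F i, ∀ f' ∈ F i, ∃ n : ℤ, f - f' = n • u)
    (hdirect : (∑ i, F i).card = ∏ i, (F i).card)
    (v : Fin d → Fin d → ℤ) (hv : (Matrix.of v).det ≠ 0) (S : κ → Set (Fin d))
    (hsub : ∀ i, ∀ f ∈ F i, ∀ f' ∈ F i, ∃ m : ℕ, 0 < m ∧
      m • (f - f') ∈ AddSubgroup.closure (v '' S i))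
    (hfull : ∀ i, ∀ b ∈ S i, ∃ m : ℕ, 0 < m ∧
      m • v b ∈ AddSubgroup.closure {x : Fin d → ℤ | ∃ f ∈ F i, ∃ f' ∈ F i, x = f - f'})
    {A : Set (Fin d → ℤ)} (hA : IsTiling A (∑ i, F i)) :
    ∃ A' : Set (Fin d → ℤ), IsTiling A' (∑ i, F i) ∧ IsPeriodic A' := by
  classical
  have hne : ∀ i, ∃ o, o ∈ F i := by
    obtain ⟨a, -, f, hf, -⟩ := hA.exists_rep 0
    obtain ⟨g, hg, -⟩ := (mem_fsum _ _ _).1 hf
    exact fun i => ⟨g i, hg i (Finset.mem_univ i)⟩
  choose o ho using hne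
  have hc : ∀ i, ((F i).image (fun f => f - o i)).card = (F i).card := fun i =>
    Finset.card_image_of_injective _ sub_left_injective
  have h0 : ∀ i, (0 : Fin d → ℤ) ∈ (F i).image (fun f => f - o i) := fun i =>
    Finset.mem_image.2 ⟨o i, ho i, sub_self (o i)⟩
  have hsum := fsum_image_sub F o
  have hd : DirOn (fun i => (F i).image (fun f => f - o i)) Finset.univ := by
    refine dirOn_of_card ?_
    rw [hsum, Finset.card_image_of_injective _ sub_left_injective, hdirect]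
    exact Finset.prod_congr rfl fun i _ => (hc i).symm
  have hA₀ := hA.translate (∑ i, o i)
  rw [← hsum] at hA₀
  obtain ⟨A₁, hA₁, hper⟩ := main_basis d (fun i => (F i).image (fun f => f - o i)) h0 hd v hv S
    (by
      intro i x hx
      obtain ⟨f, hf, rfl⟩ := Finset.mem_image.1 hx
      exact hsub i f hf (o i) (ho i))
    (by
      intro i b hb
      obtain ⟨m, hm, hmem⟩ := hfull i b hb
      rcases htype i with hp | ⟨u, hu⟩
      · have hle : AddSubgroup.closure {x : Fin d → ℤ | ∃ f ∈ F i, ∃ f' ∈ F i, x = f - f'}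
            ≤ AddSubgroup.closure (((F i).image (fun f => f - o i) : Finset (Fin d → ℤ)) :
              Set (Fin d → ℤ)) := by
          rw [AddSubgroup.closure_le]
          rintro x ⟨f, hf, f', hf', rfl⟩
          have e : f - f' = (f - o i) - (f' - o i) := by abel
          rw [e]
          exact AddSubgroup.sub_mem _
            (AddSubgroup.subset_closure (Finset.mem_coe.2 (Finset.mem_image.2 ⟨f, hf, rfl⟩)))
            (AddSubgroup.subset_closure (Finset.mem_coe.2 (Finset.mem_image.2 ⟨f', hf', rfl⟩)))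
        refine ⟨(F i).card * m, Nat.mul_pos hp.pos hm, fun B hB => ?_⟩
        refine (rigid_of_prime hp (hc i) (h0 i)).per B hB ⟨m • v b, hle hmem, ?_⟩
        rw [nsmulAddMonoidHom_apply, mul_smul]
      · obtain ⟨N, hN, hNper⟩ := line_period u ((F i).image (fun f => f - o i)) (by
          intro x hx
          obtain ⟨f, hf, rfl⟩ := Finset.mem_image.1 hx
          exact hu f hf (o i) (ho i))
        have hle : AddSubgroup.closure {x : Fin d → ℤ | ∃ f ∈ F i, ∃ f' ∈ F i, x = f - f'}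
            ≤ AddSubgroup.zmultiples u := by
          rw [AddSubgroup.closure_le]
          rintro x ⟨f, hf, f', hf', rfl⟩
          obtain ⟨n, hn⟩ := hu f hf f' hf'
          rw [hn]
          exact AddSubgroup.zsmul_mem _ (AddSubgroup.mem_zmultiples u) n
        obtain ⟨n, hn⟩ := AddSubgroup.mem_zmultiples_iff.1 (hle hmem)
        refine ⟨N * m, Nat.mul_pos hN hm, fun B hB => ?_⟩
        rw [mul_smul, ← hn, smul_comm]
        exact (stab B).zsmul_mem (hNper B hB) n)
    hA₀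
  refine ⟨(fun a => a + -(∑ i, o i)) '' A₁, ?_, hper.translate _⟩
  have hA₂ := hA₁.translate (-(∑ i, o i))
  rw [hsum, Finset.image_image] at hA₂
  have hid : ((fun f => f - -(∑ i, o i)) ∘ fun f => f - ∑ i, o i)
      = (id : (Fin d → ℤ) → (Fin d → ℤ)) := by
    funext f
    simp only [Function.comp, id]
    abel
  rw [hid, Finset.image_id] at hA₂
  exact hA₂

end Vale.Agent.Lib.P043
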