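import Vale.Agent.Lib.P043.Transverse

/-!
# Periodic tilings for direct sums of two rigid tiles

A finite set `F` is *rigid* (with data `L`, `Λ`) if every tiling `B ⊕ F = G` is invariant under
a subgroup `Λ` of `L ⊇ F` containing a positive multiple of every element of `L`.
Sets of prime cardinality containing `0` are rigid.  If `F₁` and `F₂` are rigid, the sum
`F₁ + F₂` is direct and tiles a finitely generated abelian group `G`, then it admits a periodic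
tiling.
-/

namespace Vale.Agent.Lib.P043

open Pointwise

variable {G : Type*} [AddCommGroup G]

/-- Rigidity data for a tile `F`. -/
structure Rigid (F : Finset G) (L Λ : AddSubgroup G) : Prop where
  sub : ∀ f ∈ F, f ∈ L
  le : Λ ≤ L
  tors : ∀ l ∈ L, ∃ m : ℕ, 0 < m ∧ m • l ∈ Λ
  per : ∀ B : Set G, IsTiling B F → Λ ≤ stab B

/-- A set of prime cardinality containing `0` is rigid. -/
theorem rigid_of_prime {p : ℕ} (hp : p.Prime) {F : Finset G} (hcard : F.card = p)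
    (h0 : (0 : G) ∈ F) :
    Rigid F (AddSubgroup.closure (F : Set G))
      ((AddSubgroup.closure (F : Set G)).map (nsmulAddMonoidHom p : G →+ G)) where
  sub := fun f hf => AddSubgroup.subset_closure hf
  le := by
    rintro x ⟨l, hl, rfl⟩
    exact AddSubgroup.nsmul_mem _ hl p
  tors := fun l hl => ⟨p, hp.pos, ⟨l, hl, rfl⟩⟩
  per := by
    rintro B hB x ⟨l, hl, rfl⟩
    have hl' : l ∈ AddSubgroup.closure (F : Set G) := hl
    show p • l ∈ stab B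
    induction hl' using AddSubgroup.closure_induction with
    | mem f hf =>
      have := prime_period hp hcard hB hf h0
      rwa [sub_zero] at this
    | zero => rw [smul_zero]; exact (stab B).zero_mem
    | add a b _ _ iha ihb =>
      rw [smul_add]
      exact (stab B).add_mem (iha (AddSubgroup.mem_carrier.2 (by assumption)))
        (ihb (AddSubgroup.mem_carrier.2 (by assumption)))
    | neg a _ iha =>
      rw [smul_neg]
      exact (stab B).neg_mem (iha (AddSubgroup.mem_carrier.2 (by assumption)))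

section

variable [DecidableEq G]

/-- **Main theorem (normalized form).** -/
theorem main_rigid [AddGroup.FG G] {F₁ F₂ : Finset G} {L₁ Λ₁ L₂ Λ₂ : AddSubgroup G}
    (r₁ : Rigid F₁ L₁ Λ₁) (r₂ : Rigid F₂ L₂ Λ₂) (h01 : (0 : G) ∈ F₁) (h02 : (0 : G) ∈ F₂)
    (hdir : Dir F₁ F₂) {A : Set G} (hA : IsTiling A (F₁ + F₂)) :
    ∃ A' : Set G, IsTiling A' (F₁ + F₂) ∧ IsPeriodic A' := by
  -- Round 1: resample `C = A + F₂` along periods of `B = A + F₁`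
  have hB : IsTiling (sumSet A F₁) F₂ := split_left hA hdir
  have hC : IsTiling (sumSet A F₂) F₁ := split_right hA hdir
  have hcoup := coupling hA hdir h01 h02
  obtain ⟨Γ₂, hΓ₂P, hΓ₂L, hΓ₂t⟩ := exists_max_transverse Λ₂ L₁ Λ₁ r₁.le r₁.tors
  obtain ⟨C', hC', hcoup', hΓ₂C', -⟩ := resample r₁.sub hC hcoup
    (hΓ₂P.trans (r₂.per _ hB)) (hΓ₂L.trans (r₁.per _ hC))
  have hA' : IsTiling (sumSet A F₁ ∩ C') (F₁ + F₂) := recombine hB hC' hcoup'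
  have hΓ₂A' : Γ₂ ≤ stab (sumSet A F₁ ∩ C') :=
    (le_inf (hΓ₂P.trans (r₂.per _ hB)) hΓ₂C').trans (stab_inter_le _ _)
  generalize sumSet A F₁ ∩ C' = A' at hA' hΓ₂A'
  -- Round 2: resample `B₁ = A' + F₁` along periods of `C₁ = A' + F₂`
  have hB₁ : IsTiling (sumSet A' F₁) F₂ := split_left hA' hdir
  have hC₁ : IsTiling (sumSet A' F₂) F₁ := split_right hA' hdir
  have hA'c : IsTiling A' (F₂ + F₁) := by rw [add_comm]; exact hA'
  have hcoup₁ := coupling hA'c hdir.symm h02 h01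
  obtain ⟨Γ₁, hΓ₁P, hΓ₁L, hΓ₁t⟩ := exists_max_transverse Λ₁ L₂ Λ₂ r₂.le r₂.tors
  obtain ⟨B₂, hB₂, hcoup₂, hΓ₁B₂, hkeep⟩ := resample r₂.sub hB₁ hcoup₁
    (hΓ₁P.trans (r₁.per _ hC₁)) (hΓ₁L.trans (r₂.per _ hB₁))
  have hA'' : IsTiling (sumSet A' F₂ ∩ B₂) (F₂ + F₁) := recombine hC₁ hB₂ hcoup₂
  have hΓ₁A'' : Γ₁ ≤ stab (sumSet A' F₂ ∩ B₂) :=
    (le_inf (hΓ₁P.trans (r₁.per _ hC₁)) hΓ₁B₂).trans (stab_inter_le _ _)
  have hΓ₂A'' : Γ₂ ≤ stab (sumSet A' F₂ ∩ B₂) := by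
    refine (le_inf (hΓ₂A'.trans (stab_le_stab_sumSet A' F₂)) ?_).trans (stab_inter_le _ _)
    exact (le_inf (hΓ₂A'.trans (stab_le_stab_sumSet A' F₁)) (hΓ₂P.trans r₂.le)).trans hkeep
  rw [add_comm] at hA''
  generalize sumSet A' F₂ ∩ B₂ = A'' at hA'' hΓ₁A'' hΓ₂A''
  -- Round 3: make the tiling periodic transversally to `L₁ ⊔ L₂`
  have hH : ∀ l ∈ L₁ ⊔ L₂, ∃ m : ℕ, 0 < m ∧ m • l ∈ Γ₁ ⊔ Γ₂ := by
    intro l hl
    obtain ⟨l₁, hl₁, l₂, hl₂, rfl⟩ := AddSubgroup.mem_sup.1 hl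
    obtain ⟨m₁, hm₁, hm₁l⟩ := r₁.tors l₁ hl₁
    obtain ⟨m₂, hm₂, hm₂l⟩ := r₂.tors l₂ hl₂
    obtain ⟨n₁, hn₁, hn₁l⟩ := hΓ₁t _ hm₁l
    obtain ⟨n₂, hn₂, hn₂l⟩ := hΓ₂t _ hm₂l
    refine ⟨(n₁ * m₁) * (n₂ * m₂), Nat.mul_pos (Nat.mul_pos hn₁ hm₁) (Nat.mul_pos hn₂ hm₂), ?_⟩
    have e : ((n₁ * m₁) * (n₂ * m₂)) • (l₁ + l₂)
        = (n₂ * m₂) • (n₁ • (m₁ • l₁)) + (n₁ * m₁) • (n₂ • (m₂ • l₂)) := by
      rw [smul_add, mul_comm (n₁ * m₁) (n₂ * m₂), mul_smul (n₂ * m₂) (n₁ * m₁) l₁, mul_smul n₁ m₁ l₁,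
        mul_comm (n₂ * m₂) (n₁ * m₁), mul_smul (n₁ * m₁) (n₂ * m₂) l₂, mul_smul n₂ m₂ l₂]
    rw [e]
    exact (Γ₁ ⊔ Γ₂).add_mem
      (AddSubgroup.mem_sup_left (Γ₁.nsmul_mem hn₁l _))
      (AddSubgroup.mem_sup_right (Γ₂.nsmul_mem hn₂l _))
  obtain ⟨Γ₃, -, hΓ₃L, hΓ₃t⟩ := exists_max_transverse ⊤ (L₁ ⊔ L₂) (Γ₁ ⊔ Γ₂)
    (sup_le_sup (hΓ₁P.trans r₁.le) (hΓ₂P.trans r₂.le)) hH
  have hsubF : ∀ f ∈ F₁ + F₂, f ∈ L₁ ⊔ L₂ := by
    intro f hf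
    obtain ⟨f₁, h1, f₂, h2, rfl⟩ := Finset.mem_add.1 hf
    exact (L₁ ⊔ L₂).add_mem (AddSubgroup.mem_sup_left (r₁.sub f₁ h1))
      (AddSubgroup.mem_sup_right (r₂.sub f₂ h2))
  obtain ⟨A₃, hA₃, -, hΓ₃A₃, -⟩ := resample (B := Set.univ) hsubF hA''
    (fun _ _ _ _ => by simp) (by rw [stab_univ]; exact le_top)
    (hΓ₃L.trans (sup_le hΓ₁A'' hΓ₂A''))
  exact ⟨A₃, hA₃, isPeriodic_of_le_stab
    (finiteIndex_of_torsion Γ₃ fun x => hΓ₃t x (AddSubgroup.mem_top x)) hΓ₃A₃⟩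

end

end Vale.Agent.Lib.P043
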