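import Vale.Agent.Lib.P043.Final

/-!
# Direct sums of several tiles
-/

namespace Vale.Agent.Lib.P043

open Pointwise

variable {G : Type*} [AddCommGroup G]

/-- From a nonzero integer multiple in a subgroup to a positive natural multiple. -/
theorem exists_nsmul_of_zsmul (Γ : AddSubgroup G) {j : ℤ} (hj : j ≠ 0) {x : G}
    (hjx : j • x ∈ Γ) : ∃ m : ℕ, 0 < m ∧ m • x ∈ Γ := by
  refine ⟨j.natAbs, Int.natAbs_pos.2 hj, ?_⟩
  rcases Int.natAbs_eq j with h | h
  · rw [h, natCast_zsmul] at hjx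
    exact hjx
  · rw [h, neg_smul, natCast_zsmul] at hjx
    exact (Γ.neg_mem_iff).1 hjx

/-- A tiling by the one-point tile `{0}` is everything. -/
theorem IsTiling.eq_univ_of_zero [DecidableEq G] {B : Set G} (hB : IsTiling B (0 : Finset G)) :
    B = Set.univ := by
  ext g
  simp only [Set.mem_univ, iff_true]
  obtain ⟨a, ha, f, hf, e⟩ := hB.exists_rep g
  rw [Finset.mem_zero] at hf
  rw [hf, add_zero] at e
  rwa [← e]

section

variable [DecidableEq G] {κ : Type*}

theorem sumSet_inter_sumSet {A : Set G} {F₁ F₂ : Finset G} (hA : IsTiling A (F₁ + F₂))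
    (hdir : Dir F₁ F₂) (h01 : (0 : G) ∈ F₁) (h02 : (0 : G) ∈ F₂) :
    sumSet A F₁ ∩ sumSet A F₂ = A := by
  ext x
  constructor
  · rintro ⟨⟨a, ha, f₁, h1, e₁⟩, ⟨a', ha', f₂, h2, e₂⟩⟩
    have e' : a + (f₁ + 0) = a' + (0 + f₂) := by
      rw [add_zero, zero_add, e₁, e₂]
    obtain ⟨-, hff⟩ := hA.unique_rep ha (Finset.add_mem_add h1 h02) ha'
      (Finset.add_mem_add h01 h2) e'
    obtain ⟨hf1, -⟩ := hdir f₁ h1 0 h02 0 h01 f₂ h2 hff
    rw [hf1, add_zero] at e₁
    rwa [← e₁]
  · intro hx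
    exact ⟨⟨x, hx, 0, h01, add_zero x⟩, ⟨x, hx, 0, h02, add_zero x⟩⟩

theorem mem_fsum (J : Finset κ) (F : κ → Finset G) (x : G) :
    x ∈ ∑ i ∈ J, F i ↔ ∃ g : κ → G, (∀ i ∈ J, g i ∈ F i) ∧ ∑ i ∈ J, g i = x := by
  rw [← Finset.mem_coe, Finset.coe_sum, Set.mem_finsetSum]
  constructor
  · rintro ⟨g, hg, e⟩
    exact ⟨g, fun i hi => Finset.mem_coe.1 (hg hi), e⟩
  · rintro ⟨g, hg, e⟩
    exact ⟨g, fun {i} hi => Finset.mem_coe.2 (hg i hi), e⟩

theorem zero_mem_fsum (J : Finset κ) (F : κ → Finset G) (h0 : ∀ i ∈ J, (0 : G) ∈ F i) :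
    (0 : G) ∈ ∑ i ∈ J, F i := by
  rw [mem_fsum]
  exact ⟨fun _ => 0, h0, Finset.sum_const_zero⟩

/-- The sum of the sets `F i`, `i ∈ J`, is direct. -/
def DirOn (F : κ → Finset G) (J : Finset κ) : Prop :=
  ∀ f g : κ → G, (∀ i ∈ J, f i ∈ F i) → (∀ i ∈ J, g i ∈ F i) →
    ∑ i ∈ J, f i = ∑ i ∈ J, g i → ∀ i ∈ J, f i = g i

omit [DecidableEq G] in
theorem DirOn.mono {F : κ → Finset G} {I J : Finset κ} (hd : DirOn F J) (hIJ : I ⊆ J)
    (h0 : ∀ i ∈ J, (0 : G) ∈ F i) : DirOn F I := by
  classical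
  intro f g hf hg e i hi
  have key := hd (fun i => if i ∈ I then f i else 0) (fun i => if i ∈ I then g i else 0)
    (fun i hiJ => by
      by_cases h : i ∈ I
      · simp only [h, if_true]; exact hf i h
      · simp only [h, if_false]; exact h0 i hiJ)
    (fun i hiJ => by
      by_cases h : i ∈ I
      · simp only [h, if_true]; exact hg i h
      · simp only [h, if_false]; exact h0 i hiJ)
    (by
      rw [Finset.sum_ite_mem, Finset.sum_ite_mem, Finset.inter_eq_right.2 hIJ]
      exact e) i (hIJ hi)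
  simpa [hi] using key

theorem dir_of_dirOn [DecidableEq κ] {F : κ → Finset G} {I J : Finset κ} (hd : DirOn F (I ∪ J))
    (hIJ : Disjoint I J) : Dir (∑ i ∈ I, F i) (∑ j ∈ J, F j) := by
  classical
  intro f₁ h1 f₂ h2 f₁' h1' f₂' h2' e
  obtain ⟨g, hg, rfl⟩ := (mem_fsum _ _ _).1 h1
  obtain ⟨h, hh, rfl⟩ := (mem_fsum _ _ _).1 h2
  obtain ⟨g', hg', rfl⟩ := (mem_fsum _ _ _).1 h1'
  obtain ⟨h', hh', rfl⟩ := (mem_fsum _ _ _).1 h2'
  have hsplit : ∀ a c : κ → G, ∑ i ∈ I ∪ J, (if i ∈ I then a i else c i)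
      = ∑ i ∈ I, a i + ∑ j ∈ J, c j := by
    intro a c
    rw [Finset.sum_union hIJ]
    congr 1
    · exact Finset.sum_congr rfl fun i hi => by simp only [hi, if_true]
    · exact Finset.sum_congr rfl fun i hi => by
        simp only [Finset.disjoint_right.1 hIJ hi, if_false]
  have hmem : ∀ a c : κ → G, (∀ i ∈ I, a i ∈ F i) → (∀ j ∈ J, c j ∈ F j) →
      ∀ i ∈ I ∪ J, (if i ∈ I then a i else c i) ∈ F i := by
    intro a c ha hc i hi
    by_cases hiI : i ∈ I
    · simp only [hiI, if_true]; exact ha i hiI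
    · simp only [hiI, if_false]
      rcases Finset.mem_union.1 hi with h | h
      · exact absurd h hiI
      · exact hc i h
  have key := hd (fun i => if i ∈ I then g i else h i) (fun i => if i ∈ I then g' i else h' i)
    (hmem g h hg hh) (hmem g' h' hg' hh') (by rw [hsplit, hsplit]; exact e)
  constructor
  · refine Finset.sum_congr rfl fun i hi => ?_
    have := key i (Finset.mem_union_left _ hi)
    simpa [hi] using this
  · refine Finset.sum_congr rfl fun i hi => ?_
    have := key i (Finset.mem_union_right _ hi)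
    simpa [Finset.disjoint_right.1 hIJ hi] using this

/-- A common period of all tilings by each `F j` (`j ∈ J`) is a period of every tiling by the
direct sum of the `F j`. -/
theorem stab_of_all {F : κ → Finset G} {x : G} (J : Finset κ) (h0 : ∀ i ∈ J, (0 : G) ∈ F i)
    (hd : DirOn F J) (hx : ∀ j ∈ J, ∀ B : Set G, IsTiling B (F j) → x ∈ stab B) :
    ∀ B : Set G, IsTiling B (∑ j ∈ J, F j) → x ∈ stab B := by
  classical
  induction J using Finset.induction_on with
  | empty =>
    intro B hB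
    rw [Finset.sum_empty] at hB
    rw [hB.eq_univ_of_zero, stab_univ]
    exact AddSubgroup.mem_top x
  | insert j J' hj ih =>
    intro B hB
    rw [Finset.sum_insert hj] at hB
    have h0j : (0 : G) ∈ F j := h0 j (Finset.mem_insert_self j J')
    have h0J' : (0 : G) ∈ ∑ i ∈ J', F i :=
      zero_mem_fsum _ _ fun i hi => h0 i (Finset.mem_insert_of_mem hi)
    have hdir : Dir (F j) (∑ i ∈ J', F i) := by
      have := dir_of_dirOn (F := F) (I := {j}) (J := J')
        (by rw [← Finset.insert_eq]; exact hd) (Finset.disjoint_singleton_left.2 hj)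
      rwa [Finset.sum_singleton] at this
    have hB₁ : IsTiling (sumSet B (F j)) (∑ i ∈ J', F i) := split_left hB hdir
    have hB₂ : IsTiling (sumSet B (∑ i ∈ J', F i)) (F j) := split_right hB hdir
    have hx₁ : x ∈ stab (sumSet B (F j)) :=
      ih (fun i hi => h0 i (Finset.mem_insert_of_mem hi))
        (hd.mono (Finset.subset_insert j J') h0)
        (fun i hi => hx i (Finset.mem_insert_of_mem hi)) _ hB₁
    have hx₂ : x ∈ stab (sumSet B (∑ i ∈ J', F i)) := hx j (Finset.mem_insert_self j J') _ hB₂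
    have := stab_inter_le _ _ (show x ∈ stab (sumSet B (F j)) ⊓ stab (sumSet B (∑ i ∈ J', F i))
      from ⟨hx₁, hx₂⟩)
    rwa [sumSet_inter_sumSet hB hdir h0j h0J'] at this

/-- Directness from the cardinality of the sum. -/
theorem dirOn_of_card [Fintype κ] {F : κ → Finset G}
    (h : (∑ i, F i).card = ∏ i, (F i).card) : DirOn F Finset.univ := by
  classical
  have himg : (Fintype.piFinset F).image (fun g : κ → G => ∑ i, g i) = ∑ i, F i := by
    ext x
    rw [Finset.mem_image, mem_fsum]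
    constructor
    · rintro ⟨g, hg, rfl⟩
      exact ⟨g, fun i _ => Fintype.mem_piFinset.1 hg i, rfl⟩
    · rintro ⟨g, hg, rfl⟩
      exact ⟨g, Fintype.mem_piFinset.2 fun i => hg i (Finset.mem_univ i), rfl⟩
  have hcard : ((Fintype.piFinset F).image (fun g : κ → G => ∑ i, g i)).card
      = (Fintype.piFinset F).card := by
    rw [himg, h, Fintype.card_piFinset]
  have hinj := Finset.card_image_iff.1 hcard
  intro f g hf hg e i _
  have hfm : f ∈ (Fintype.piFinset F : Set (κ → G)) :=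
    Finset.mem_coe.2 (Fintype.mem_piFinset.2 fun i => hf i (Finset.mem_univ i))
  have hgm : g ∈ (Fintype.piFinset F : Set (κ → G)) :=
    Finset.mem_coe.2 (Fintype.mem_piFinset.2 fun i => hg i (Finset.mem_univ i))
  have := hinj hfm hgm e
  rw [this]

end

end Vale.Agent.Lib.P043
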