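import Vale.Agent.Lib.P043.Basic

/-!
# Tilings by a set of prime cardinality

If `B ⊕ F = G` and `F` has prime cardinality `p`, then `B` is invariant under `p • (f - f')` for
all `f, f' ∈ F`.  The proof is the Frobenius argument in the group algebra over `ZMod p`.
-/

namespace Vale.Agent.Lib.P043

open Finset

variable {G : Type*} [AddCommGroup G]

section Prime

variable (p : ℕ) [hp : Fact p.Prime]

/-- Translation action of `G` on functions `G → ZMod p`. -/
noncomputable def transl : Multiplicative G →* Module.End (ZMod p) (G → ZMod p) where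
  toFun g :=
    { toFun := fun u x => u (x - Multiplicative.toAdd g)
      map_add' := by intro u v; rfl
      map_smul' := by intro c u; rfl }
  map_one' := by
    ext u x
    simp
  map_mul' := by
    intro a b
    ext u x
    simp [sub_sub]

theorem transl_apply (g : G) (u : G → ZMod p) (x : G) :
    transl p (Multiplicative.ofAdd g) u x = u (x - g) := rfl

/-- The indicator function of `B` with values in `ZMod p`. -/
noncomputable def ind (B : Set G) : G → ZMod p := by
  classical exact fun g => if g ∈ B then 1 else 0

omit [AddCommGroup G] in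
theorem ind_apply (B : Set G) [DecidablePred (· ∈ B)] (g : G) :
    ind p B g = if g ∈ B then 1 else 0 := by
  unfold ind
  congr

/-- The operator `∑ f ∈ F, (translation by f)`. -/
noncomputable def sumTransl (F : Finset G) : Module.End (ZMod p) (G → ZMod p) :=
  ∑ f ∈ F, transl p (Multiplicative.ofAdd f)

theorem sumTransl_apply (F : Finset G) (u : G → ZMod p) (x : G) :
    sumTransl p F u x = ∑ f ∈ F, u (x - f) := by
  simp [sumTransl, LinearMap.sum_apply, transl_apply]

/-- Frobenius: the `p`-th power of `∑ f ∈ F, τ_f` is `∑ f ∈ F, τ_{p f}`. -/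
theorem sumTransl_pow (F : Finset G) :
    sumTransl p F ^ p = ∑ f ∈ F, transl p (Multiplicative.ofAdd (p • f)) := by
  classical
  have : CharP (AddMonoidAlgebra (ZMod p) G) p := charP_of_injective_algebraMap' (ZMod p) p
  let Θ := AddMonoidAlgebra.lift (ZMod p) (Module.End (ZMod p) (G → ZMod p)) G (transl p)
  have h1 : Θ (∑ f ∈ F, AddMonoidAlgebra.single f (1 : ZMod p)) = sumTransl p F := by
    simp [Θ, sumTransl]
  have h2 : (∑ f ∈ F, AddMonoidAlgebra.single f (1 : ZMod p)) ^ p
      = ∑ f ∈ F, AddMonoidAlgebra.single (p • f) (1 : ZMod p) := by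
    rw [sum_pow_char]
    refine Finset.sum_congr rfl fun f _ => ?_
    rw [AddMonoidAlgebra.single_pow, one_pow]
  rw [← h1, ← map_pow, h2]
  simp [Θ]

theorem sumTransl_ind {B : Set G} {F : Finset G} (hB : IsTiling B F) :
    sumTransl p F (ind p B) = fun _ => 1 := by
  classical
  funext x
  rw [sumTransl_apply]
  obtain ⟨a, ha, f₀, hf₀, e⟩ := hB.exists_rep x
  rw [Finset.sum_eq_single f₀]
  · rw [ind_apply, if_pos]
    rw [← e]
    simpa using ha
  · intro f hf hne
    rw [ind_apply, if_neg]
    intro hmem
    apply hne
    have := hB.unique_rep hmem hf ha hf₀ (by rw [e]; abel)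
    exact this.2
  · intro h
    exact absurd hf₀ h

theorem sumTransl_const {F : Finset G} (hcard : F.card = p) (c : ZMod p) :
    sumTransl p F (fun _ => c) = 0 := by
  funext x
  rw [sumTransl_apply]
  simp [hcard]

/-- The number of `f ∈ F` with `x - p • f ∈ B` is divisible by `p`. -/
theorem prime_count {B : Set G} {F : Finset G} (hcard : F.card = p) (hB : IsTiling B F)
    [DecidablePred (· ∈ B)] (x : G) :
    p ∣ (F.filter (fun f => x - p • f ∈ B)).card := by
  have hp2 : 2 ≤ p := hp.out.two_le
  have h0 : ∀ k : ℕ, (sumTransl p F ^ (k + 1 + 1)) (ind p B) = 0 := by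
    intro k
    rw [pow_succ, pow_succ]
    simp only [Module.End.mul_apply]
    rw [sumTransl_ind p hB, sumTransl_const p hcard, map_zero]
  have h1 : (sumTransl p F ^ p) (ind p B) = 0 := by
    have h := h0 (p - 2)
    rwa [show p - 2 + 1 + 1 = p by omega] at h
  rw [sumTransl_pow] at h1
  have h2 := congrFun h1 x
  simp only [LinearMap.sum_apply, Finset.sum_apply, transl_apply, Pi.zero_apply] at h2
  rw [← ZMod.natCast_eq_zero_iff, Finset.card_filter]
  rw [← h2]
  push_cast
  refine Finset.sum_congr rfl fun f _ => ?_
  rw [ind_apply]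

end Prime

/-- **Tiles of prime cardinality.** If `B ⊕ F = G` and `F` has prime cardinality `p`, then
`p • (f - f')` is a period of `B` for all `f, f' ∈ F`. -/
theorem prime_period {p : ℕ} (hp : p.Prime) {B : Set G} {F : Finset G} (hcard : F.card = p)
    (hB : IsTiling B F) {f f' : G} (hf : f ∈ F) (hf' : f' ∈ F) :
    p • (f - f') ∈ stab B := by
  classical
  have : Fact p.Prime := ⟨hp⟩
  have key : ∀ f ∈ F, ∀ f' ∈ F, ∀ b ∈ B, b + p • (f - f') ∈ B := by
    intro f hf f' hf' b hb
    have hdvd := prime_count p hcard hB (b + p • f)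
    have hmem : f ∈ F.filter (fun f' => b + p • f - p • f' ∈ B) := by
      rw [Finset.mem_filter]
      exact ⟨hf, by simpa using hb⟩
    have hpos : 0 < (F.filter (fun f' => b + p • f - p • f' ∈ B)).card :=
      Finset.card_pos.2 ⟨f, hmem⟩
    have hle : (F.filter (fun f' => b + p • f - p • f' ∈ B)).card ≤ F.card :=
      Finset.card_filter_le _ _
    have hge : p ≤ (F.filter (fun f' => b + p • f - p • f' ∈ B)).card :=
      Nat.le_of_dvd hpos hdvd
    have heq : F.filter (fun f' => b + p • f - p • f' ∈ B) = F :=
      Finset.eq_of_subset_of_card_le (Finset.filter_subset _ _) (by rw [hcard]; exact hge)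
    have hf'2 : f' ∈ F.filter (fun f' => b + p • f - p • f' ∈ B) := by rw [heq]; exact hf'
    have := (Finset.mem_filter.1 hf'2).2
    rw [smul_sub]
    convert this using 1
    abel
  rw [mem_stab]
  intro x
  constructor
  · intro h
    have := key f' hf' f hf _ h
    convert this using 1
    rw [smul_sub, smul_sub]
    abel
  · intro h
    exact key f hf f' hf' x h

end Vale.Agent.Lib.P043
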