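import Vale.Agent.Lib.P043.Prime

/-!
# Tilings by a direct sum `F₁ + F₂`: splitting, recombination, resampling
-/

namespace Vale.Agent.Lib.P043

open Pointwise

variable {G : Type*} [AddCommGroup G]

/-- The set `A + F`. -/
def sumSet (A : Set G) (F : Finset G) : Set G := {x | ∃ a ∈ A, ∃ f ∈ F, a + f = x}

/-- The sum `F₁ + F₂` is direct. -/
def Dir (F₁ F₂ : Finset G) : Prop :=
  ∀ f₁ ∈ F₁, ∀ f₂ ∈ F₂, ∀ f₁' ∈ F₁, ∀ f₂' ∈ F₂, f₁ + f₂ = f₁' + f₂' → f₁ = f₁' ∧ f₂ = f₂'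

theorem Dir.symm {F₁ F₂ : Finset G} (h : Dir F₁ F₂) : Dir F₂ F₁ := by
  intro f₂ h2 f₁ h1 f₂' h2' f₁' h1' e
  have := h f₁ h1 f₂ h2 f₁' h1' f₂' h2' (by rw [add_comm f₁, add_comm f₁']; exact e)
  exact ⟨this.2, this.1⟩

theorem stab_le_stab_sumSet (A : Set G) (F : Finset G) : stab A ≤ stab (sumSet A F) := by
  intro h hh
  rw [mem_stab]
  intro x
  constructor
  · rintro ⟨a, ha, f, hf, e⟩
    refine ⟨a - h, (stab_sub_mem hh a).2 ha, f, hf, ?_⟩
    rw [sub_add_eq_add_sub, e, add_sub_cancel_right]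
  · rintro ⟨a, ha, f, hf, e⟩
    refine ⟨a + h, (stab_add_mem hh a).2 ha, f, hf, ?_⟩
    rw [← e]
    abel

theorem stab_inter_le (B C : Set G) : stab B ⊓ stab C ≤ stab (B ∩ C) := by
  rintro h ⟨hB, hC⟩
  rw [mem_stab]
  intro x
  exact and_congr (hB x) (hC x)

section

variable [DecidableEq G]

theorem split_left {A : Set G} {F₁ F₂ : Finset G} (hA : IsTiling A (F₁ + F₂))
    (hdir : Dir F₁ F₂) : IsTiling (sumSet A F₁) F₂ := by
  refine isTiling_of ?_ ?_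
  · intro g
    obtain ⟨a, ha, f, hf, e⟩ := hA.exists_rep g
    obtain ⟨f₁, h1, f₂, h2, rfl⟩ := Finset.mem_add.1 hf
    exact ⟨a + f₁, ⟨a, ha, f₁, h1, rfl⟩, f₂, h2, by rw [← e, add_assoc]⟩
  · rintro b ⟨a, ha, f₁, h1, rfl⟩ f₂ h2 b' ⟨a', ha', f₁', h1', rfl⟩ f₂' h2' e
    have e' : a + (f₁ + f₂) = a' + (f₁' + f₂') := by
      rw [← add_assoc, ← add_assoc]
      exact e
    obtain ⟨haa, hff⟩ := hA.unique_rep ha (Finset.add_mem_add h1 h2) ha'
      (Finset.add_mem_add h1' h2') e'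
    obtain ⟨hf1, hf2⟩ := hdir f₁ h1 f₂ h2 f₁' h1' f₂' h2' hff
    exact ⟨by rw [haa, hf1], hf2⟩

theorem split_right {A : Set G} {F₁ F₂ : Finset G} (hA : IsTiling A (F₁ + F₂))
    (hdir : Dir F₁ F₂) : IsTiling (sumSet A F₂) F₁ := by
  rw [add_comm] at hA
  exact split_left hA hdir.symm

/-- In a tiling by `F₁ + F₂` (both containing `0`), the set `A + F₁` is a union of the
translates `c + F₁` with `c ∈ A + F₂`. -/
theorem coupling {A : Set G} {F₁ F₂ : Finset G} (hA : IsTiling A (F₁ + F₂))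
    (hdir : Dir F₁ F₂) (h01 : (0 : G) ∈ F₁) (h02 : (0 : G) ∈ F₂) :
    ∀ c ∈ sumSet A F₂, ∀ f ∈ F₁, (c ∈ sumSet A F₁ ↔ c + f ∈ sumSet A F₁) := by
  rintro c ⟨a, ha, f₂, h2, rfl⟩ f hf
  constructor
  · rintro ⟨a', ha', f₁', h1', e⟩
    have e' : a + (0 + f₂) = a' + (f₁' + 0) := by
      rw [zero_add, add_zero]
      exact e.symm
    obtain ⟨haa, hff⟩ := hA.unique_rep ha (Finset.add_mem_add h01 h2) ha'
      (Finset.add_mem_add h1' h02) e'
    obtain ⟨-, hf2⟩ := hdir 0 h01 f₂ h2 f₁' h1' 0 h02 hff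
    refine ⟨a, ha, f, hf, ?_⟩
    rw [hf2, add_zero]
  · rintro ⟨a', ha', f₁', h1', e⟩
    have e' : a + (f + f₂) = a' + (f₁' + 0) := by
      rw [add_zero, e]
      abel
    obtain ⟨haa, hff⟩ := hA.unique_rep ha (Finset.add_mem_add hf h2) ha'
      (Finset.add_mem_add h1' h02) e'
    obtain ⟨-, hf2⟩ := hdir f hf f₂ h2 f₁' h1' 0 h02 hff
    refine ⟨a, ha, 0, h01, ?_⟩
    rw [hf2]

/-- Recombination: a tiling `B` by `F₂` and a tiling `C` by `F₁` such that `B` is a union of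
tiles `c + F₁` (`c ∈ C`) give the tiling `B ∩ C` by `F₁ + F₂`. -/
theorem recombine {B C : Set G} {F₁ F₂ : Finset G} (hB : IsTiling B F₂) (hC : IsTiling C F₁)
    (hcoup : ∀ c ∈ C, ∀ f ∈ F₁, (c ∈ B ↔ c + f ∈ B)) :
    IsTiling (B ∩ C) (F₁ + F₂) := by
  refine isTiling_of ?_ ?_
  · intro g
    obtain ⟨b, hb, f₂, h2, e⟩ := hB.exists_rep g
    obtain ⟨c, hc, f₁, h1, e₁⟩ := hC.exists_rep b
    have hcB : c ∈ B := (hcoup c hc f₁ h1).2 (by rw [e₁]; exact hb)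
    exact ⟨c, ⟨hcB, hc⟩, f₁ + f₂, Finset.add_mem_add h1 h2, by rw [← add_assoc, e₁, e]⟩
  · rintro a ⟨haB, haC⟩ f hf a' ⟨haB', haC'⟩ f' hf' e
    obtain ⟨f₁, h1, f₂, h2, rfl⟩ := Finset.mem_add.1 hf
    obtain ⟨f₁', h1', f₂', h2', rfl⟩ := Finset.mem_add.1 hf'
    have hb : a + f₁ ∈ B := (hcoup a haC f₁ h1).1 haB
    have hb' : a' + f₁' ∈ B := (hcoup a' haC' f₁' h1').1 haB'
    have e' : (a + f₁) + f₂ = (a' + f₁') + f₂' := by
      rw [add_assoc, add_assoc]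
      exact e
    obtain ⟨hbb, hf2⟩ := hB.unique_rep hb h2 hb' h2' e'
    obtain ⟨haa, hf1⟩ := hC.unique_rep haC h1 haC' h1' hbb
    exact ⟨haa, by rw [hf1, hf2]⟩

end

/-- A choice of `Γ`-components, constant up to `L` on cosets of `Γ ⊔ L`. -/
theorem exists_section (Γ L : AddSubgroup G) :
    ∃ γ : G → G, (∀ x, γ x ∈ Γ) ∧ ∀ x y, x - y ∈ Γ ⊔ L → γ x - γ y - (x - y) ∈ L := by
  classical
  let σ : G → G := fun x => Quotient.out (QuotientAddGroup.mk x : G ⧸ (Γ ⊔ L))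
  have hσ : ∀ x, -σ x + x ∈ Γ ⊔ L := by
    intro x
    rw [← QuotientAddGroup.eq]
    exact QuotientAddGroup.out_eq' _
  have hdec : ∀ x, ∃ g ∈ Γ, ∃ l ∈ L, g + l = -σ x + x := fun x => AddSubgroup.mem_sup.1 (hσ x)
  choose γ hγ l hl e using hdec
  refine ⟨γ, hγ, ?_⟩
  intro x y hxy
  have hmk : (QuotientAddGroup.mk x : G ⧸ (Γ ⊔ L)) = QuotientAddGroup.mk y :=
    QuotientAddGroup.eq_iff_sub_mem.2 hxy
  have hσxy : σ x = σ y := by
    simp only [σ, hmk]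
  have hx := e x
  have hy := e y
  rw [hσxy] at hx
  have : γ x - γ y - (x - y) = l y - l x := by
    have h1 : γ x = -σ y + x - l x := by rw [← hx]; abel
    have h2 : γ y = -σ y + y - l y := by rw [← hy]; abel
    rw [h1, h2]
    abel
  rw [this]
  exact L.sub_mem (hl y) (hl x)

/-- Resampling: transport a tiling `C` by `F` along a group `Γ` of periods of `B`, keeping `B`
a union of tiles. -/
theorem resample {F : Finset G} {L Γ : AddSubgroup G} {C B : Set G}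
    (hFL : ∀ f ∈ F, f ∈ L) (hC : IsTiling C F)
    (hcoup : ∀ c ∈ C, ∀ f ∈ F, (c ∈ B ↔ c + f ∈ B))
    (hΓB : Γ ≤ stab B) (hΓC : Γ ⊓ L ≤ stab C) :
    ∃ C' : Set G, IsTiling C' F ∧ (∀ c ∈ C', ∀ f ∈ F, (c ∈ B ↔ c + f ∈ B)) ∧
      Γ ≤ stab C' ∧ stab C ⊓ L ≤ stab C' := by
  obtain ⟨γ, hγ, hK⟩ := exists_section Γ L
  -- for `x - y ∈ L`, the difference `γ x - γ y` is a period of `C`
  have hE : ∀ x y, x - y ∈ L → γ x - γ y ∈ stab C := by
    intro x y hxy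
    refine hΓC ⟨Γ.sub_mem (hγ x) (hγ y), ?_⟩
    have h1 := hK x y (AddSubgroup.mem_sup_right hxy)
    have : γ x - γ y = (γ x - γ y - (x - y)) + (x - y) := by abel
    rw [this]
    exact L.add_mem h1 hxy
  refine ⟨{x | x - γ x ∈ C}, ?_, ?_, ?_, ?_⟩
  · refine isTiling_of ?_ ?_
    · intro x
      obtain ⟨c, hc, f, hf, e⟩ := hC.exists_rep (x - γ x)
      refine ⟨x - f, ?_, f, hf, by abel⟩
      have hε := hE x (x - f) (by rw [sub_sub_cancel]; exact hFL f hf)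
      have : x - f - γ (x - f) = c + (γ x - γ (x - f)) := by
        have : c = x - γ x - f := by rw [← e]; abel
        rw [this]
        abel
      show x - f - γ (x - f) ∈ C
      rw [this]
      exact (stab_add_mem hε c).2 hc
    · intro c₁ hc₁ f₁ hf₁ c₂ hc₂ f₂ hf₂ e
      have key : ∀ c ∈ {x | x - γ x ∈ C}, ∀ f ∈ F, c - γ (c + f) ∈ C := by
        intro c hc f hf
        have hε := hE (c + f) c (by rw [add_sub_cancel_left]; exact hFL f hf)
        have : c - γ (c + f) = c - γ c - (γ (c + f) - γ c) := by abel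
        rw [this]
        exact (stab_sub_mem hε _).2 hc
      have h1 := key c₁ hc₁ f₁ hf₁
      have h2 := key c₂ hc₂ f₂ hf₂
      rw [← e] at h2
      have e' : (c₁ - γ (c₁ + f₁)) + f₁ = (c₂ - γ (c₁ + f₁)) + f₂ := by
        have : c₂ = c₁ + f₁ - f₂ := by rw [e]; abel
        rw [this]
        abel
      obtain ⟨hcc, hff⟩ := hC.unique_rep h1 hf₁ h2 hf₂ e'
      exact ⟨by simpa using hcc, hff⟩
  · intro c hc f hf
    have hc' : c - γ c ∈ C := hc
    have hγB := hΓB (hγ c)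
    rw [← stab_sub_mem hγB c, hcoup _ hc' f hf, ← stab_sub_mem hγB (c + f)]
    have : c - γ c + f = c + f - γ c := by abel
    rw [this]
  · intro t ht
    rw [mem_stab]
    intro x
    have hε : γ (x + t) - γ x - t ∈ stab C := by
      refine hΓC ⟨Γ.sub_mem (Γ.sub_mem (hγ _) (hγ _)) ht, ?_⟩
      have := hK (x + t) x (by rw [add_sub_cancel_left]; exact AddSubgroup.mem_sup_left ht)
      rwa [add_sub_cancel_left] at this
    show x + t - γ (x + t) ∈ C ↔ x - γ x ∈ C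
    have : x + t - γ (x + t) = x - γ x - (γ (x + t) - γ x - t) := by abel
    rw [this]
    exact stab_sub_mem hε _
  · rintro lam ⟨hlamC, hlamL⟩
    rw [mem_stab]
    intro x
    have hε := hE (x + lam) x (by rw [add_sub_cancel_left]; exact hlamL)
    show x + lam - γ (x + lam) ∈ C ↔ x - γ x ∈ C
    have : x + lam - γ (x + lam) = x - γ x + lam - (γ (x + lam) - γ x) := by abel
    rw [this, stab_sub_mem hε, stab_add_mem hlamC]

end Vale.Agent.Lib.P043
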