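import Vale.Agent.Lib.P043.Split

/-!
# Maximal transverse subgroups and finite index
-/

namespace Vale.Agent.Lib.P043

variable {G : Type*} [AddCommGroup G]

/-- Inside `P` there is a subgroup `Γ` meeting `L` inside `Λ` and containing a positive
multiple of every element of `P`, provided every element of `L` has a positive multiple in
`Λ ≤ L`. -/
theorem exists_max_transverse (P L Λ : AddSubgroup G) (hΛL : Λ ≤ L)
    (hH : ∀ l ∈ L, ∃ m : ℕ, 0 < m ∧ m • l ∈ Λ) :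
    ∃ Γ : AddSubgroup G, Γ ≤ P ∧ Γ ⊓ L ≤ Λ ∧ ∀ x ∈ P, ∃ m : ℕ, 0 < m ∧ m • x ∈ Γ := by
  classical
  let S : Set (AddSubgroup G) := {Γ | Γ ≤ P ∧ Γ ⊓ L ≤ Λ}
  have hzorn : ∃ Γ, Maximal (· ∈ S) Γ := by
    refine zorn_le₀ S ?_
    intro c hcS hchain
    rcases c.eq_empty_or_nonempty with hemp | hne
    · refine ⟨⊥, ⟨bot_le, ?_⟩, ?_⟩
      · rw [bot_inf_eq]; exact bot_le
      · intro z hz; rw [hemp] at hz; exact absurd hz (Set.notMem_empty z)
    · refine ⟨sSup c, ⟨sSup_le fun Γ hΓ => (hcS hΓ).1, ?_⟩, fun z hz => le_sSup hz⟩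
      intro z hz
      have hz1 : z ∈ sSup c := hz.1
      have hz2 : z ∈ L := hz.2
      rw [AddSubgroup.mem_sSup_of_directedOn hne hchain.directedOn] at hz1
      obtain ⟨Γ', hΓ'c, hzΓ'⟩ := hz1
      exact (hcS hΓ'c).2 ⟨hzΓ', hz2⟩
  obtain ⟨Γ, hΓ⟩ := hzorn
  have hΓS : Γ ≤ P ∧ Γ ⊓ L ≤ Λ := hΓ.1
  refine ⟨Γ, hΓS.1, hΓS.2, ?_⟩
  intro x hx
  -- from a nonzero integer multiple to a positive natural multiple
  have hnat : ∀ j : ℤ, j ≠ 0 → j • x ∈ Γ → ∃ m : ℕ, 0 < m ∧ m • x ∈ Γ := by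
    intro j hj hjx
    refine ⟨j.natAbs, Int.natAbs_pos.2 hj, ?_⟩
    rcases Int.natAbs_eq j with h | h
    · rw [h, natCast_zsmul] at hjx
      exact hjx
    · rw [h, neg_smul, natCast_zsmul] at hjx
      exact (Γ.neg_mem_iff).1 hjx
  by_cases h : ∃ j : ℤ, j ≠ 0 ∧ ∃ g ∈ Γ, g + j • x ∈ L
  · obtain ⟨j, hj, g₀, hg₀, hl⟩ := h
    obtain ⟨m, hm, hml⟩ := hH _ hl
    have hml' : (m : ℤ) • (g₀ + j • x) ∈ Λ := by rw [natCast_zsmul]; exact hml
    let y : G := ((m : ℤ) * j) • x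
    have hyP : y ∈ P := P.zsmul_mem hx _
    have hS' : Γ ⊔ AddSubgroup.zmultiples y ∈ S := by
      refine ⟨sup_le hΓS.1 (AddSubgroup.zmultiples_le_of_mem hyP), ?_⟩
      intro z hz
      have hz1 : z ∈ Γ ⊔ AddSubgroup.zmultiples y := hz.1
      have hz2 : z ∈ L := hz.2
      obtain ⟨g, hg, w, hw, rfl⟩ := AddSubgroup.mem_sup.1 hz1
      obtain ⟨i, rfl⟩ := AddSubgroup.mem_zmultiples_iff.1 hw
      have hiΛ : i • ((m : ℤ) • (g₀ + j • x)) ∈ Λ := Λ.zsmul_mem hml' i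
      have hdecomp : g + i • y = (g - i • ((m : ℤ) • g₀)) + i • ((m : ℤ) • (g₀ + j • x)) := by
        simp only [y, smul_add, mul_smul]
        abel
      have hu : g - i • ((m : ℤ) • g₀) ∈ Γ ⊓ L := by
        refine ⟨Γ.sub_mem hg (Γ.zsmul_mem (Γ.zsmul_mem hg₀ _) _), ?_⟩
        have : g - i • ((m : ℤ) • g₀) = (g + i • y) - i • ((m : ℤ) • (g₀ + j • x)) := by
          rw [hdecomp]; abel
        show g - i • ((m : ℤ) • g₀) ∈ L
        rw [this]
        exact L.sub_mem hz2 (hΛL hiΛ)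
      show g + i • y ∈ Λ
      rw [hdecomp]
      exact Λ.add_mem (hΓS.2 hu) hiΛ
    have hle : Γ ⊔ AddSubgroup.zmultiples y ≤ Γ := hΓ.2 hS' le_sup_left
    have hyΓ : y ∈ Γ := hle (AddSubgroup.mem_sup_right (AddSubgroup.mem_zmultiples y))
    refine hnat ((m : ℤ) * j) (mul_ne_zero ?_ hj) hyΓ
    exact_mod_cast hm.ne'
  · have hS' : Γ ⊔ AddSubgroup.zmultiples x ∈ S := by
      refine ⟨sup_le hΓS.1 (AddSubgroup.zmultiples_le_of_mem hx), ?_⟩
      intro z hz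
      have hz1 : z ∈ Γ ⊔ AddSubgroup.zmultiples x := hz.1
      have hz2 : z ∈ L := hz.2
      obtain ⟨g, hg, w, hw, rfl⟩ := AddSubgroup.mem_sup.1 hz1
      obtain ⟨i, rfl⟩ := AddSubgroup.mem_zmultiples_iff.1 hw
      by_cases hi : i = 0
      · subst hi
        rw [zero_smul, add_zero] at hz2
        show g + (0 : ℤ) • x ∈ Λ
        rw [zero_smul, add_zero]
        exact hΓS.2 ⟨hg, hz2⟩
      · exact absurd ⟨i, hi, g, hg, hz2⟩ h
    have hle : Γ ⊔ AddSubgroup.zmultiples x ≤ Γ := hΓ.2 hS' le_sup_left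
    have hxΓ : x ∈ Γ := hle (AddSubgroup.mem_sup_right (AddSubgroup.mem_zmultiples x))
    exact ⟨1, one_pos, by rwa [one_smul]⟩

/-- A subgroup of a finitely generated abelian group containing a positive multiple of every
element has finite index. -/
theorem finiteIndex_of_torsion [AddGroup.FG G] (Γ : AddSubgroup G)
    (h : ∀ x : G, ∃ m : ℕ, 0 < m ∧ m • x ∈ Γ) : Γ.FiniteIndex := by
  have htors : IsAddTorsion (G ⧸ Γ) := by
    intro q
    induction q using QuotientAddGroup.induction_on with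
    | H x =>
      obtain ⟨m, hm, hmx⟩ := h x
      rw [isOfFinAddOrder_iff_nsmul_eq_zero]
      refine ⟨m, hm, ?_⟩
      rw [← QuotientAddGroup.mk_nsmul]
      exact (QuotientAddGroup.eq_zero_iff _).2 hmx
  have : Finite (G ⧸ Γ) := AddCommGroup.finite_of_fg_isAddTorsion _ htors
  exact AddSubgroup.finiteIndex_of_finite_quotient

end Vale.Agent.Lib.P043
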